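import Vale.Agent.Lib.P328.JS2.Mat

/-!
# P328 (JS), sl2 model, B7: irreducibility of `AT` on `Y2 t s`
-/

namespace P328JS2

open P335 P328RC Finset

variable {κ : Type*} [Fintype κ] [DecidableEq κ] {t : κ → ℕ}

theorem AT_apply (f : Box t → ℝ) (x : Box t) :
    AT f x = ∑ a, ∑ b, wF a x * (wE b (dn a x) * f (up b (dn a x))) := by
  unfold AT FT ET
  rw [Module.End.mul_apply, LinearMap.sum_apply, LinearMap.sum_apply, Finset.sum_apply]
  refine Finset.sum_congr rfl (fun a _ => ?_)
  rw [Fo_apply, Finset.sum_apply, Finset.mul_sum]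
  rfl

theorem wF_nonneg (j : κ) (x : Box t) : 0 ≤ wF j x := Real.sqrt_nonneg _
theorem wE_nonneg (j : κ) (x : Box t) : 0 ≤ wE j x := Real.sqrt_nonneg _

theorem wF_pos {j : κ} {x : Box t} (h : 0 < x.1 j) : 0 < wF j x := by
  unfold wF
  apply Real.sqrt_pos.2
  have h1 : (0 : ℝ) < x.1 j := by exact_mod_cast h
  have h2 : (x.1 j : ℝ) ≤ t j := by exact_mod_cast x.2 j
  apply mul_pos h1
  linarith

theorem wE_pos {j : κ} {x : Box t} (h : x.1 j < t j) : 0 < wE j x := by
  unfold wE
  apply Real.sqrt_pos.2
  have h1 : (0 : ℝ) ≤ x.1 j := by positivity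
  have h2 : (x.1 j : ℝ) < t j := by exact_mod_cast h
  apply mul_pos
  · linarith
  · linarith

theorem mat_AT_pos {x : Box t} {j k : κ} (hjk : j ≠ k) (hj : 0 < x.1 j) (hk : x.1 k < t k) :
    0 < mat AT x (up k (dn j x)) := by
  rw [mat_apply, AT_apply]
  have hnn : ∀ a b : κ, 0 ≤ wF a x * (wE b (dn a x) *
      (Pi.single (up k (dn j x)) (1 : ℝ) : Box t → ℝ) (up b (dn a x))) := by
    intro a b
    apply mul_nonneg (wF_nonneg _ _) (mul_nonneg (wE_nonneg _ _) ?_)
    by_cases h : up b (dn a x) = up k (dn j x)
    · rw [h, Pi.single_eq_same]; exact zero_le_one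
    · rw [Pi.single_eq_of_ne h]
  have hk' : (dn j x).1 k < t k := by
    show Function.update x.1 j (x.1 j - 1) k < t k
    rw [Function.update_of_ne hjk.symm]; exact hk
  have hpos : 0 < wF j x * (wE k (dn j x) *
      (Pi.single (up k (dn j x)) (1 : ℝ) : Box t → ℝ) (up k (dn j x))) := by
    rw [Pi.single_eq_same, mul_one]
    exact mul_pos (wF_pos hj) (wE_pos hk')
  calc 0 < _ := hpos
    _ ≤ ∑ b, wF j x * (wE b (dn j x) *
      (Pi.single (up k (dn j x)) (1 : ℝ) : Box t → ℝ) (up b (dn j x))) :=
        Finset.single_le_sum (f := fun b => wF j x * (wE b (dn j x) *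
      (Pi.single (up k (dn j x)) (1 : ℝ) : Box t → ℝ) (up b (dn j x)))) (fun b _ => hnn j b) (mem_univ k)
    _ ≤ _ := Finset.single_le_sum (f := fun a => ∑ b, wF a x * (wE b (dn a x) *
      (Pi.single (up k (dn j x)) (1 : ℝ) : Box t → ℝ) (up b (dn a x))))
        (fun a _ => Finset.sum_nonneg (fun b _ => hnn a b)) (mem_univ j)

theorem sum_move (f : κ → ℕ) {j k : κ} (hjk : j ≠ k) (hj : 0 < f j) :
    ∑ i, Function.update (Function.update f j (f j - 1)) k (f k + 1) i = ∑ i, f i := by
  have h : ∀ i, Function.update (Function.update f j (f j - 1)) k (f k + 1) i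
      + (if i = j then 1 else 0) = f i + (if i = k then 1 else 0) := by
    intro i
    by_cases hik : i = k
    · subst hik
      rw [Function.update_self, if_neg hjk.symm, if_pos rfl]
    · by_cases hij : i = j
      · subst hij
        rw [Function.update_of_ne hik, Function.update_self, if_pos rfl, if_neg hik]
        omega
      · rw [Function.update_of_ne hik, Function.update_of_ne hij, if_neg hij, if_neg hik]
  have h2 := Finset.sum_congr (s₁ := (univ : Finset κ)) rfl (fun i _ => h i)
  rw [Finset.sum_add_distrib, Finset.sum_add_distrib] at h2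
  simpa using h2

theorem Y2_conn {s : ℕ} (ξ : Y2 t s → ℝ)
    (h : ∀ a b : Y2 t s, ∀ j k, j ≠ k → 0 < a.1 j → a.1 k < t k →
      inc b = up k (dn j (inc a)) → ξ a = ξ b) : ∀ a b, ξ a = ξ b := by
  have key : ∀ d : ℕ, ∀ a b : Y2 t s, ∑ i, (a.1 i - b.1 i) = d → ξ a = ξ b := by
    intro d
    induction d with
    | zero =>
      intro a b hd
      have hle : ∀ i, a.1 i ≤ b.1 i := by
        intro i
        have := (Finset.sum_eq_zero_iff.1 hd) i (mem_univ i)
        omega
      have hab : a = b := by
        apply Subtype.ext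
        funext i
        by_contra hne
        have hlt : a.1 i < b.1 i := lt_of_le_of_ne (hle i) hne
        have h3 : ∑ i, a.1 i < ∑ i, b.1 i :=
          Finset.sum_lt_sum (fun i _ => hle i) ⟨i, mem_univ i, hlt⟩
        rw [a.2.2, b.2.2] at h3
        exact lt_irrefl _ h3
      rw [hab]
    | succ d ih =>
      intro a b hd
      obtain ⟨j, hj⟩ : ∃ j, b.1 j < a.1 j := by
        by_contra hc
        have h0 : ∑ i, (a.1 i - b.1 i) = 0 :=
          Finset.sum_eq_zero (fun i _ => by
            have : ¬ b.1 i < a.1 i := fun hh => hc ⟨i, hh⟩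
            omega)
        omega
      obtain ⟨k, hk⟩ : ∃ k, a.1 k < b.1 k := by
        by_contra hc
        have h3 : ∑ i, b.1 i < ∑ i, a.1 i :=
          Finset.sum_lt_sum (fun i _ => by
            have : ¬ a.1 i < b.1 i := fun hh => hc ⟨i, hh⟩
            omega) ⟨j, mem_univ j, hj⟩
        rw [a.2.2, b.2.2] at h3
        exact lt_irrefl _ h3
      have hjk : j ≠ k := by
        rintro rfl
        omega
      have hj0 : 0 < a.1 j := by omega
      have hkt : a.1 k < t k := lt_of_lt_of_le hk (b.2.1 k)
      have hval : (up k (dn j (inc a))).1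
          = Function.update (Function.update a.1 j (a.1 j - 1)) k (a.1 k + 1) := by
        show Function.update (Function.update a.1 j (a.1 j - 1)) k
          (min (Function.update a.1 j (a.1 j - 1) k + 1) (t k)) = _
        rw [Function.update_of_ne hjk.symm, min_eq_left (by omega)]
      let a' : Y2 t s := ⟨(up k (dn j (inc a))).1, (up k (dn j (inc a))).2, by
        rw [hval, sum_move a.1 hjk hj0]; exact a.2.2⟩
      have h1 : ξ a = ξ a' := h a a' j k hjk hj0 hkt rfl
      rw [h1]
      apply ih
      have hpt : ∀ i, (a'.1 i - b.1 i) + (if i = j then 1 else 0) = a.1 i - b.1 i := by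
        intro i
        show (up k (dn j (inc a))).1 i - b.1 i + _ = _
        rw [hval]
        by_cases hik : i = k
        · subst hik
          rw [Function.update_self, if_neg hjk.symm]
          omega
        · by_cases hij : i = j
          · subst hij
            rw [Function.update_of_ne hik, Function.update_self, if_pos rfl]
            omega
          · rw [Function.update_of_ne hik, Function.update_of_ne hij, if_neg hij]
            rfl
      have h2 := Finset.sum_congr (s₁ := (univ : Finset κ)) rfl (fun i _ => hpt i)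
      rw [Finset.sum_add_distrib, hd] at h2
      simp at h2
      exact h2
  intro a b
  exact key _ a b rfl

theorem res_AT_conn {s : ℕ} (ξ : Y2 t s → ℝ)
    (h : ∀ a b : Y2 t s, res s AT a b ≠ 0 → ξ a = ξ b) : ∀ a b, ξ a = ξ b := by
  apply Y2_conn
  intro a b j k hjk hj hk hb
  apply h
  unfold res
  rw [hb]
  exact (mat_AT_pos (x := inc a) hjk hj hk).ne'

end P328JS2
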