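import Vale.Agent.Lib.P328.JS2.Transfer
import Vale.Agent.Lib.P328.JS2.Conn

/-!
# P328 (JS): the sl2 model on the two-row system `Y2 t s`
`Om J = res s (CJ J)`, `OmT = res s AT`, `G = res s (aeval (CJ J) P)` with `P` from `exists_poly`.
-/

namespace P328JS2

open P335 P328RC Finset

variable {κ : Type*} [Fintype κ] [LinearOrder κ]

/-- a block operator restricted to `Y2 t s` vanishes outside the classes of `RJ J` -/
theorem res_block {t : κ → ℕ} {s : ℕ} {J : κ × κ} {A : Module.End ℝ (Box t → ℝ)}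
    (h : ∀ u b, Commute A (Dg (ind J u b))) (x y : Y2 t s) (hxy : ¬ RJ J x y) :
    res s A x y = 0 := by
  unfold res
  exact block_of_comm_ind h (inc x) (inc y) (fun hc => hxy hc.1)

/-- restrictions of commuting operators commute, if one of them preserves the weight -/
theorem res_comm {t : κ → ℕ} (s : ℕ) {A B : Module.End ℝ (Box t → ℝ)} (hA : WP A)
    (h : Commute A B) : res s A * res s B = res s B * res s A := by
  rw [← res_mul s hA B, ← res_mul' s B hA, h.eq]

open Classical in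
/-- existence of the sl2 model -/
theorem model_exists (t : κ → ℕ) (s : ℕ) :
    ∃ (Om : κ × κ → Matrix (Y2 t s) (Y2 t s) ℝ) (OmT : Matrix (Y2 t s) (Y2 t s) ℝ),
      (∀ J ∈ pr κ, (Om J).IsSymm) ∧ OmT.IsSymm ∧
      (∀ J ∈ pr κ, ∀ x y, ¬ RJ J x y → Om J x y = 0) ∧
      (∀ x y, x ≠ y → OmT x y = ∑ J ∈ pr κ, Om J x y) ∧
      (∀ J ∈ pr κ, Om J * OmT = OmT * Om J) ∧
      (∀ ξ : Y2 t s → ℝ, (∀ x y, OmT x y ≠ 0 → ξ x = ξ y) → ∀ x y, ξ x = ξ y) ∧
      (∀ J ∈ pr κ, ∀ z : Y2 t s → ℝ, (∀ x y, lat2 J x = lat2 J y → z x = z y) →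
        ∃ G : Matrix (Y2 t s) (Y2 t s) ℝ,
          (∀ x y, ¬ RJ J x y → G x y = 0) ∧ G * Om J = Om J * G ∧ G * OmT = OmT * G ∧
          avg (RJ J) (fun x => G x x) = avg (RJ J) z ∧ ∑ x, ∑ y, G x y ^ 2 = dot z z) := by
  have hne : ∀ J ∈ pr κ, J.1 ≠ J.2 := fun J hJ => ne_of_lt (mem_pr.1 hJ)
  refine ⟨fun J => res s (CJ J), res s AT, ?_, ?_, ?_, ?_, ?_, ?_, ?_⟩
  · intro J _
    exact res_isSymm s (CJ_symm J)
  · exact res_isSymm s AT_symm
  · intro J hJ x y hxy
    exact res_block (fun u b => CJ_comm_ind J (hne J hJ) u b) x y hxy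
  · intro x y hxy
    obtain ⟨φ, hφ⟩ := sum_CJ (t := t)
    have h1 : ∑ J ∈ pr κ, res s (CJ J) x y = mat (∑ J ∈ pr κ, (CJ J : Module.End ℝ (Box t → ℝ)))
        (inc x) (inc y) := by
      rw [mat_sum, Matrix.sum_apply]
      rfl
    rw [h1, hφ, mat_add, Matrix.add_apply, mat_Dg,
      if_neg (fun hc => hxy (inc_injective hc)), add_zero]
    rfl
  · intro J hJ
    exact res_comm s (WP_of_comm_ind (hne J hJ) (fun u b => CJ_comm_ind J (hne J hJ) u b))
      (CJ_comm_AT (hne J hJ))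
  · intro ξ h
    exact res_AT_conn ξ h
  · intro J hJ z hz
    obtain ⟨P, hP⟩ := exists_poly J z hz
    have hind : ∀ u b, Commute (Polynomial.aeval (CJ J : Module.End ℝ (Box t → ℝ)) P)
        (Dg (ind J u b)) := fun u b => aeval_comm (CJ_comm_ind J (hne J hJ) u b) P
    have hWP : WP (Polynomial.aeval (CJ J : Module.End ℝ (Box t → ℝ)) P) :=
      WP_of_comm_ind (hne J hJ) hind
    refine ⟨res s (Polynomial.aeval (CJ J) P), ?_, ?_, ?_, ?_, ?_⟩
    · intro x y hxy
      exact res_block hind x y hxy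
    · exact res_comm s hWP (aeval_comm (Commute.refl _) P)
    · exact res_comm s hWP (aeval_comm (CJ_comm_AT (hne J hJ)) P)
    · rw [avg_diag_res (hne J hJ) P]
      congr 1
      funext a
      exact hP a
    · rw [hs_res (hne J hJ) P]
      unfold dot
      refine Finset.sum_congr rfl (fun a _ => ?_)
      rw [hP a, sq]

end P328JS2
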