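import Vale.Agent.Lib.P328.JS2.Abstract
import Vale.Agent.Lib.P328.JS2.Model

/-!
# P328: the two-row inequality `JS κ 1`
-/

namespace P328JS2

open P335 P328RC Finset

variable {κ : Type*} [Fintype κ] [LinearOrder κ]

/-- two points of `Y2 t s` which agree off one site are equal (the total is fixed) -/
theorem Y2_eq_of_off {t : κ → ℕ} {s : ℕ} (x y : Y2 t s) (k0 : κ)
    (h : ∀ k, k ≠ k0 → x.1 k = y.1 k) : x = y := by
  have hs : ∑ j, x.1 j = ∑ j, y.1 j := x.2.2.trans y.2.2.symm
  rw [← Finset.add_sum_erase univ _ (mem_univ k0), ← Finset.add_sum_erase univ _ (mem_univ k0)]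
    at hs
  have he : ∑ j ∈ univ.erase k0, x.1 j = ∑ j ∈ univ.erase k0, y.1 j :=
    Finset.sum_congr rfl (fun j hj => h j (Finset.ne_of_mem_erase hj))
  rw [he] at hs
  have h0 : x.1 k0 = y.1 k0 := Nat.add_right_cancel hs
  apply Subtype.ext
  funext k
  by_cases hk : k = k0
  · rw [hk]; exact h0
  · exact h k hk

/-- two different pairs: agreeing outside both means equal (the total is fixed) -/
theorem RJ_disj {t : κ → ℕ} {s : ℕ} (J : κ × κ) (hJ : J ∈ pr κ) (J' : κ × κ) (hJ' : J' ∈ pr κ)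
    (hne : J ≠ J') (x y : Y2 t s) (h : RJ J x y) (h' : RJ J' x y) : x = y := by
  rw [mem_pr] at hJ hJ'
  by_cases h1 : J.1 ≠ J'.1 ∧ J.1 ≠ J'.2
  · refine Y2_eq_of_off x y J.2 (fun k hk => ?_)
    by_cases hk1 : k = J.1
    · rw [hk1]; exact h' _ h1.1 h1.2
    · exact h k hk1 hk
  · by_cases h2 : J.2 ≠ J'.1 ∧ J.2 ≠ J'.2
    · refine Y2_eq_of_off x y J.1 (fun k hk => ?_)
      by_cases hk2 : k = J.2
      · rw [hk2]; exact h' _ h2.1 h2.2
      · exact h k hk hk2
    · exfalso
      apply hne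
      have a1 : J.1 = J'.1 ∨ J.1 = J'.2 := by
        by_contra hc
        push Not at hc
        exact h1 hc
      have a2 : J.2 = J'.1 ∨ J.2 = J'.2 := by
        by_contra hc
        push Not at hc
        exact h2 hc
      rcases a1 with a1 | a1 <;> rcases a2 with a2 | a2
      · rw [a1, a2] at hJ; exact absurd hJ (lt_irrefl _)
      · exact Prod.ext a1 a2
      · rw [a1, a2] at hJ; exact absurd hJ (not_lt.2 hJ'.le)
      · rw [a1, a2] at hJ; exact absurd hJ (lt_irrefl _)

/-- (JS) for at least two pairs, mean zero `g`, in the form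
`∑ |E_J (g + z_J)|² ≤ (N-1) |g|² + ∑ |z_J|²` -/
theorem JS_core (h2 : 2 ≤ (pr κ).card) (t : κ → ℕ) (s : ℕ) (g : Y2 t s → ℝ) (hg : ∑ x, g x = 0)
    (z : κ × κ → Y2 t s → ℝ) (hz : ∀ J x y, lat2 J x = lat2 J y → z J x = z J y) :
    ∑ J ∈ pr κ, dot (avg (RJ J) (g + z J)) (avg (RJ J) (g + z J))
      ≤ (((pr κ).card : ℝ) - 1) * dot g g + ∑ J ∈ pr κ, dot (z J) (z J) := by
  classical
  obtain ⟨Om, OmT, hsymm, hsymmT, hblock, hsum, hcomm, hconn, hG⟩ := model_exists t s
  have hG' : ∀ J : κ × κ, ∃ G : Matrix (Y2 t s) (Y2 t s) ℝ, J ∈ pr κ →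
      ((∀ x y, ¬ RJ J x y → G x y = 0) ∧ G * Om J = Om J * G ∧ G * OmT = OmT * G ∧
          avg (RJ J) (fun x => G x x) = avg (RJ J) (z J) ∧ ∑ x, ∑ y, G x y ^ 2 = dot (z J) (z J)) := by
    intro J
    by_cases hJ : J ∈ pr κ
    · obtain ⟨G, hh⟩ := hG J hJ (z J) (hz J)
      exact ⟨G, fun _ => hh⟩
    · exact ⟨0, fun h => absurd h hJ⟩
  choose G hGG using hG'
  have key := abstract_JS (pr κ) h2 (fun J => RJ (t := t) (s := s) J) (fun J => RJ_equiv J)
    (fun J hJ J' hJ' hne x y h h' => RJ_disj J hJ J' hJ' hne x y h h')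
    Om OmT hsymm hsymmT hblock hsum hcomm hconn g hg G
    (fun J hJ => (hGG J hJ).1) (fun J hJ => (hGG J hJ).2.1) (fun J hJ => (hGG J hJ).2.2.1)
  have e1 : ∑ J ∈ pr κ, dot (avg (RJ J) (g + z J)) (avg (RJ J) (g + z J))
      = ∑ J ∈ pr κ, dot (avg (RJ J) (g + fun x => G J x x)) (avg (RJ J) (g + fun x => G J x x)) := by
    refine Finset.sum_congr rfl (fun J hJ => ?_)
    rw [avg_add, avg_add, (hGG J hJ).2.2.2.1]
  have e2 : ∑ J ∈ pr κ, dot (z J) (z J) = ∑ J ∈ pr κ, ∑ x, ∑ y, G J x y ^ 2 :=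
    Finset.sum_congr rfl (fun J hJ => ((hGG J hJ).2.2.2.2).symm)
  rw [e1, e2]
  exact key

/-- the cross term against the mean vanishes -/
theorem dot_sub_RT_avg_RT {Ω : Type*} [Fintype Ω] (g z : Ω → ℝ) :
    dot (g - avg RT g) (avg RT z) = 0 := by
  rw [← avg_symm RT_equiv, avg_sub, avg_idem RT_equiv, sub_self]
  simp [dot]

/-- the case of at most one pair -/
theorem JS_small (h2 : (pr κ).card ≤ 1) : JS κ 1 := by
  intro t s g z _
  rw [one_mul]
  rcases Nat.le_one_iff_eq_zero_or_eq_one.1 h2 with h0 | h1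
  · -- no pair: `κ` is a subsingleton, so is `Y2 t s`
    rw [Finset.card_eq_zero] at h0
    have hsub : ∀ a b : κ, a = b := by
      intro a b
      rcases lt_trichotomy a b with h | h | h
      · have : (a, b) ∈ pr κ := mem_pr.2 h
        rw [h0] at this
        exact absurd this (Finset.notMem_empty _)
      · exact h
      · have : (b, a) ∈ pr κ := mem_pr.2 h
        rw [h0] at this
        exact absurd this (Finset.notMem_empty _)
    have hY : ∀ x y : Y2 t s, x = y := by
      intro x y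
      by_cases hne : Nonempty κ
      · obtain ⟨k0⟩ := hne
        exact Y2_eq_of_off x y k0 (fun k hk => absurd (hsub k k0) hk)
      · apply Subtype.ext
        funext k
        exact absurd ⟨k⟩ hne
    have hg : avg RT g = g := avg_of_inv RT_equiv (fun x y _ => by rw [hY x y])
    rw [h0, hg, sub_self]
    simp [dot]
  · obtain ⟨J, hJ⟩ := Finset.card_eq_one.1 h1
    have hJm : J ∈ pr κ := by rw [hJ]; exact Finset.mem_singleton_self J
    have hall : ∀ k : κ, k = J.1 ∨ k = J.2 := by
      intro k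
      rcases lt_trichotomy k J.1 with h | h | h
      · have : (k, J.1) ∈ pr κ := mem_pr.2 h
        rw [hJ, Finset.mem_singleton] at this
        left
        exact congrArg Prod.fst this
      · exact Or.inl h
      · have : (J.1, k) ∈ pr κ := mem_pr.2 h
        rw [hJ, Finset.mem_singleton] at this
        right
        exact congrArg Prod.snd this
    have hR : (RJ J : Y2 t s → Y2 t s → Prop) = RT := by
      funext x y
      exact propext ⟨fun _ => trivial, fun _ k h1 h2 => ((hall k).elim h1 h2).elim⟩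
    rw [hJ, Finset.sum_singleton]
    unfold jsTerm
    rw [hR, dot_sub_RT_avg_RT]
    have := dot_self_nonneg (z J - avg RT (z J))
    linarith

/-- for `f` of mean zero the (JS) term is `|f|² + |z|² - |E (f + z)|²` -/
theorem jsTerm_eq {Ω : Type*} [Fintype Ω] {rr : Ω → Ω → Prop} (hr : Equivalence rr)
    (g z : Ω → ℝ) :
    jsTerm RT rr g z = dot (g - avg RT g) (g - avg RT g) + dot z z
      - dot (avg rr ((g - avg RT g) + z)) (avg rr ((g - avg RT g) + z)) := by
  have hm : avg rr (avg RT g) = avg RT g :=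
    avg_avg_of_ge hr RT_equiv (fun _ _ _ => trivial) g
  unfold jsTerm
  generalize hf : g - avg RT g = f
  have h1 : g - avg rr g = f - avg rr f := by
    rw [← hf, avg_sub, hm]
    abel
  have a1 : dot (f - avg rr f) (f - avg rr f) = dot f f - dot (avg rr f) (avg rr f) := by
    rw [dot_Q_Q hr, dot_sub_right, dot_avg_avg hr]
  have a2 : dot (z - avg rr z) (z - avg rr z) = dot z z - dot (avg rr z) (avg rr z) := by
    rw [dot_Q_Q hr, dot_sub_right, dot_avg_avg hr]
  have a3 : dot (avg rr f) (avg rr z) = dot f (avg rr z) := by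
    rw [avg_symm hr, avg_idem hr]
  have a4 : dot (avg rr z) (avg rr f) = dot f (avg rr z) := by
    rw [dot_comm, a3]
  rw [h1, a1, a2, avg_add, dot_add_left, dot_add_right, dot_add_right, a3, a4]
  ring

theorem JS_one : JS κ 1 := by
  by_cases h2 : 2 ≤ (pr κ).card
  · intro t s g z hz
    rw [one_mul]
    have hf0 : ∑ x, (g - avg RT g) x = 0 := by
      have := sum_avg RT_equiv g
      simp only [Pi.sub_apply, Finset.sum_sub_distrib]
      rw [this, sub_self]
    have key := JS_core h2 t s (g - avg RT g) hf0 z hz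
    have e : ∑ J ∈ pr κ, jsTerm RT (RJ J) g (z J)
        = ((pr κ).card : ℝ) * dot (g - avg RT g) (g - avg RT g) + ∑ J ∈ pr κ, dot (z J) (z J)
          - ∑ J ∈ pr κ, dot (avg (RJ J) ((g - avg RT g) + z J))
              (avg (RJ J) ((g - avg RT g) + z J)) := by
      rw [Finset.sum_congr rfl (fun J _ => jsTerm_eq (RJ_equiv J) g (z J)),
        Finset.sum_sub_distrib, Finset.sum_add_distrib, Finset.sum_const, nsmul_eq_mul]
    rw [e]
    linarith
  · exact JS_small (by omega)

end P328JS2
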