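import Mathlib

/-!
# P328, direct route to (JS): spectral resolutions of symmetric matrices and the operator `|ad A|`

Everything is plain ring and trace algebra on `Matrix Y Y ℝ`, once a spectral resolution
(a finite family of orthogonal symmetric idempotents) has been extracted from the spectral theorem.
-/

namespace P328JS2

open Matrix Finset

variable {Y : Type*} [Fintype Y] [DecidableEq Y]

/-- Hilbert-Schmidt inner product -/
def hs (A B : Matrix Y Y ℝ) : ℝ := (Aᵀ * B).trace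

theorem hs_eq_sum (A B : Matrix Y Y ℝ) : hs A B = ∑ x, ∑ y, A x y * B x y := by
  unfold hs
  simp only [Matrix.trace, Matrix.diag_apply, Matrix.mul_apply, Matrix.transpose_apply]
  rw [Finset.sum_comm]

theorem hs_comm (A B : Matrix Y Y ℝ) : hs A B = hs B A := by
  rw [hs_eq_sum, hs_eq_sum]
  exact Finset.sum_congr rfl fun x _ => Finset.sum_congr rfl fun y _ => mul_comm _ _

theorem hs_self_nonneg (A : Matrix Y Y ℝ) : 0 ≤ hs A A := by
  rw [hs_eq_sum]
  exact Finset.sum_nonneg fun x _ => Finset.sum_nonneg fun y _ => mul_self_nonneg _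

theorem hs_self_eq_zero {A : Matrix Y Y ℝ} (h : hs A A = 0) : A = 0 := by
  rw [hs_eq_sum] at h
  ext x y
  have h1 := (Finset.sum_eq_zero_iff_of_nonneg (fun x _ =>
    Finset.sum_nonneg fun y _ => mul_self_nonneg (A x y))).1 h x (mem_univ x)
  have h2 := (Finset.sum_eq_zero_iff_of_nonneg (fun y _ => mul_self_nonneg (A x y))).1 h1 y
    (mem_univ y)
  simpa using h2

theorem hs_add_left (A B C : Matrix Y Y ℝ) : hs (A + B) C = hs A C + hs B C := by
  unfold hs
  rw [Matrix.transpose_add, Matrix.add_mul, Matrix.trace_add]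

theorem hs_add_right (A B C : Matrix Y Y ℝ) : hs A (B + C) = hs A B + hs A C := by
  rw [hs_comm, hs_add_left, hs_comm B, hs_comm C]

theorem hs_sub_left (A B C : Matrix Y Y ℝ) : hs (A - B) C = hs A C - hs B C := by
  unfold hs
  rw [Matrix.transpose_sub, Matrix.sub_mul, Matrix.trace_sub]

theorem hs_sub_right (A B C : Matrix Y Y ℝ) : hs A (B - C) = hs A B - hs A C := by
  rw [hs_comm, hs_sub_left, hs_comm B, hs_comm C]

theorem hs_smul_left (c : ℝ) (A B : Matrix Y Y ℝ) : hs (c • A) B = c * hs A B := by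
  unfold hs
  rw [Matrix.transpose_smul, Matrix.smul_mul, Matrix.trace_smul, smul_eq_mul]

theorem hs_smul_right (c : ℝ) (A B : Matrix Y Y ℝ) : hs A (c • B) = c * hs A B := by
  rw [hs_comm, hs_smul_left, hs_comm]

theorem hs_zero_left (B : Matrix Y Y ℝ) : hs 0 B = 0 := by
  unfold hs
  simp

theorem hs_zero_right (B : Matrix Y Y ℝ) : hs B 0 = 0 := by
  unfold hs
  simp

theorem hs_sum_left {α : Type*} (s : Finset α) (F : α → Matrix Y Y ℝ) (B : Matrix Y Y ℝ) :
    hs (∑ a ∈ s, F a) B = ∑ a ∈ s, hs (F a) B := by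
  classical
  induction s using Finset.induction_on with
  | empty => simp [hs_zero_left]
  | insert a s ha ih => rw [Finset.sum_insert ha, Finset.sum_insert ha, hs_add_left, ih]

theorem hs_sum_right {α : Type*} (s : Finset α) (F : α → Matrix Y Y ℝ) (B : Matrix Y Y ℝ) :
    hs B (∑ a ∈ s, F a) = ∑ a ∈ s, hs B (F a) := by
  rw [hs_comm, hs_sum_left]
  exact Finset.sum_congr rfl fun a _ => hs_comm _ _

/-- orthogonal diagonalisation of a real symmetric matrix -/
theorem exists_diag (A : Matrix Y Y ℝ) (hA : Aᵀ = A) :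
    ∃ (U : Matrix Y Y ℝ) (d : Y → ℝ), Uᵀ * U = 1 ∧ U * Uᵀ = 1 ∧ A = U * diagonal d * Uᵀ := by
  have hH : A.IsHermitian := by
    rw [Matrix.IsHermitian, Matrix.conjTranspose_eq_transpose_of_trivial, hA]
  refine ⟨(hH.eigenvectorUnitary : Matrix Y Y ℝ), hH.eigenvalues, ?_, ?_, ?_⟩
  · have := Unitary.coe_star_mul_self hH.eigenvectorUnitary
    simpa [Matrix.star_eq_conjTranspose] using this
  · have := Unitary.coe_mul_star_self hH.eigenvectorUnitary
    simpa [Matrix.star_eq_conjTranspose] using this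
  · have := hH.spectral_theorem
    simpa [Unitary.conjStarAlgAut_apply, Matrix.star_eq_conjTranspose] using this

/-- a spectral resolution of `A` -/
structure SpecRes (A : Matrix Y Y ℝ) where
  S : Finset ℝ
  P : ℝ → Matrix Y Y ℝ
  symm : ∀ a, (P a)ᵀ = P a
  idem : ∀ a, P a * P a = P a
  orth : ∀ a b, a ≠ b → P a * P b = 0
  sum_one : ∑ a ∈ S, P a = 1
  mul_l : ∀ a, A * P a = a • P a
  mul_r : ∀ a, P a * A = a • P a

theorem exists_specRes (A : Matrix Y Y ℝ) (hA : Aᵀ = A) : Nonempty (SpecRes A) := by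
  obtain ⟨U, d, h1, h2, h3⟩ := exists_diag A hA
  have hmul : ∀ D E : Matrix Y Y ℝ, (U * D * Uᵀ) * (U * E * Uᵀ) = U * (D * E) * Uᵀ := by
    intro D E
    calc (U * D * Uᵀ) * (U * E * Uᵀ) = U * D * (Uᵀ * U) * E * Uᵀ := by
          simp only [Matrix.mul_assoc]
      _ = U * (D * E) * Uᵀ := by rw [h1]; simp only [Matrix.mul_one, Matrix.mul_assoc]
  refine ⟨⟨univ.image d, fun a => U * diagonal (fun i => if d i = a then 1 else 0) * Uᵀ,
    ?_, ?_, ?_, ?_, ?_, ?_⟩⟩
  · intro a
    simp only [Matrix.transpose_mul, Matrix.transpose_transpose, Matrix.diagonal_transpose,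
      Matrix.mul_assoc]
  · intro a
    rw [hmul, Matrix.diagonal_mul_diagonal]
    congr 3
    funext i
    split_ifs <;> simp
  · intro a b hab
    rw [hmul, Matrix.diagonal_mul_diagonal]
    have : (fun i => (if d i = a then (1:ℝ) else 0) * (if d i = b then 1 else 0)) = fun _ => 0 := by
      funext i
      by_cases h : d i = a
      · have : d i ≠ b := fun h' => hab (h.symm.trans h')
        simp [this]
      · simp [h]
    rw [this]
    simp
  · rw [← Finset.sum_mul, ← Finset.mul_sum]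
    have : ∑ a ∈ univ.image d, diagonal (fun i => if d i = a then (1:ℝ) else 0) = 1 := by
      ext i j
      rw [Matrix.sum_apply]
      by_cases hij : i = j
      · subst hij
        simp only [Matrix.diagonal_apply_eq, Matrix.one_apply_eq]
        rw [Finset.sum_ite_eq]
        simp
      · simp [Matrix.diagonal_apply_ne _ hij, Matrix.one_apply_ne hij]
    rw [this, Matrix.mul_one, h2]
  · intro a
    conv_lhs => rw [h3]
    rw [hmul, Matrix.diagonal_mul_diagonal, ← Matrix.smul_mul, ← Matrix.mul_smul]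
    congr 2
    ext i j
    by_cases hij : i = j
    · subst hij
      simp only [Matrix.diagonal_apply_eq, Matrix.smul_apply, smul_eq_mul]
      split_ifs with h
      · rw [h]
      · simp
    · simp [Matrix.diagonal_apply_ne _ hij]
  · intro a
    conv_lhs => rw [h3]
    rw [hmul, Matrix.diagonal_mul_diagonal, ← Matrix.smul_mul, ← Matrix.mul_smul]
    congr 2
    ext i j
    by_cases hij : i = j
    · subst hij
      simp only [Matrix.diagonal_apply_eq, Matrix.smul_apply, smul_eq_mul]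
      split_ifs with h
      · rw [h]; ring
      · simp
    · simp [Matrix.diagonal_apply_ne _ hij]

namespace SpecRes

variable {A B : Matrix Y Y ℝ}

/-- off-diagonal corners of a matrix commuting with `A` vanish -/
theorem corner_eq_zero (R : SpecRes A) {G : Matrix Y Y ℝ} (h : G * A = A * G) {a b : ℝ}
    (hab : a ≠ b) : R.P a * G * R.P b = 0 := by
  have h1 : R.P a * (G * A) * R.P b = b • (R.P a * G * R.P b) := by
    calc R.P a * (G * A) * R.P b = R.P a * G * (A * R.P b) := by simp only [Matrix.mul_assoc]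
      _ = b • (R.P a * G * R.P b) := by rw [R.mul_l, Matrix.mul_smul]
  have h2 : R.P a * (A * G) * R.P b = a • (R.P a * G * R.P b) := by
    calc R.P a * (A * G) * R.P b = (R.P a * A) * G * R.P b := by simp only [Matrix.mul_assoc]
      _ = a • (R.P a * G * R.P b) := by rw [R.mul_r, Matrix.smul_mul, Matrix.smul_mul]
  rw [h, h2] at h1
  have h3 : (a - b) • (R.P a * G * R.P b) = 0 := by rw [sub_smul, h1, sub_self]
  rcases smul_eq_zero.1 h3 with h4 | h4
  · exact absurd (sub_eq_zero.1 h4) hab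
  · exact h4

/-- a matrix commuting with `A` commutes with the spectral projections -/
theorem commute_P (R : SpecRes A) {G : Matrix Y Y ℝ} (h : G * A = A * G) (a : ℝ) :
    G * R.P a = R.P a * G := by
  have h1 : G * R.P a = ∑ b ∈ R.S, (if b = a then R.P a * G * R.P a else 0) := by
    calc G * R.P a = (∑ b ∈ R.S, R.P b) * (G * R.P a) := by rw [R.sum_one, Matrix.one_mul]
      _ = ∑ b ∈ R.S, R.P b * G * R.P a := by
          rw [Finset.sum_mul]
          exact Finset.sum_congr rfl fun b _ => by rw [Matrix.mul_assoc]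
      _ = _ := by
          refine Finset.sum_congr rfl fun b _ => ?_
          split_ifs with hb
          · rw [hb]
          · exact R.corner_eq_zero h hb
  have h2 : R.P a * G = ∑ b ∈ R.S, (if b = a then R.P a * G * R.P a else 0) := by
    calc R.P a * G = (R.P a * G) * (∑ b ∈ R.S, R.P b) := by rw [R.sum_one, Matrix.mul_one]
      _ = ∑ b ∈ R.S, R.P a * G * R.P b := by rw [Finset.mul_sum]
      _ = _ := by
          refine Finset.sum_congr rfl fun b _ => ?_
          split_ifs with hb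
          · rw [hb]
          · exact R.corner_eq_zero h (Ne.symm hb)
  exact h1.trans h2.symm

/-- `∑ φ(a,b) P_a ξ P_b` -/
def sand (R : SpecRes A) (φ : ℝ → ℝ → ℝ) (ξ : Matrix Y Y ℝ) : Matrix Y Y ℝ :=
  ∑ a ∈ R.S, ∑ b ∈ R.S, φ a b • (R.P a * ξ * R.P b)

theorem sand_one (R : SpecRes A) (ξ : Matrix Y Y ℝ) : R.sand (fun _ _ => 1) ξ = ξ := by
  unfold sand
  simp only [one_smul]
  calc ∑ a ∈ R.S, ∑ b ∈ R.S, R.P a * ξ * R.P b = ∑ a ∈ R.S, R.P a * ξ * (∑ b ∈ R.S, R.P b) :=
        Finset.sum_congr rfl fun a _ => by rw [Finset.mul_sum]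
    _ = (∑ a ∈ R.S, R.P a) * ξ := by
        rw [Finset.sum_mul]
        exact Finset.sum_congr rfl fun a _ => by rw [R.sum_one, Matrix.mul_one]
    _ = ξ := by rw [R.sum_one, Matrix.one_mul]

theorem sand_left (R : SpecRes A) (ξ : Matrix Y Y ℝ) : R.sand (fun a _ => a) ξ = A * ξ := by
  conv_rhs => rw [← R.sand_one ξ]
  unfold sand
  rw [Finset.mul_sum]
  refine Finset.sum_congr rfl fun a _ => ?_
  rw [Finset.mul_sum]
  refine Finset.sum_congr rfl fun b _ => ?_
  rw [one_smul, ← Matrix.mul_assoc, ← Matrix.mul_assoc, R.mul_l, Matrix.smul_mul, Matrix.smul_mul]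

theorem sand_right (R : SpecRes A) (ξ : Matrix Y Y ℝ) : R.sand (fun _ b => b) ξ = ξ * A := by
  conv_rhs => rw [← R.sand_one ξ]
  unfold sand
  rw [Finset.sum_mul]
  refine Finset.sum_congr rfl fun a _ => ?_
  rw [Finset.sum_mul]
  refine Finset.sum_congr rfl fun b _ => ?_
  rw [one_smul, Matrix.mul_assoc _ _ A, R.mul_r, Matrix.mul_smul]

theorem sand_sub (R : SpecRes A) (φ ψ : ℝ → ℝ → ℝ) (ξ : Matrix Y Y ℝ) :
    R.sand (fun a b => φ a b - ψ a b) ξ = R.sand φ ξ - R.sand ψ ξ := by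
  unfold sand
  rw [← Finset.sum_sub_distrib]
  refine Finset.sum_congr rfl fun a _ => ?_
  rw [← Finset.sum_sub_distrib]
  exact Finset.sum_congr rfl fun b _ => sub_smul _ _ _

/-- the commutator as a sandwich -/
theorem sand_comm (R : SpecRes A) (ξ : Matrix Y Y ℝ) :
    R.sand (fun a b => a - b) ξ = A * ξ - ξ * A := by
  rw [R.sand_sub (fun a _ => a) (fun _ b => b), sand_left, sand_right]

theorem sand_add_arg (R : SpecRes A) (φ : ℝ → ℝ → ℝ) (ξ η : Matrix Y Y ℝ) :
    R.sand φ (ξ + η) = R.sand φ ξ + R.sand φ η := by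
  unfold sand
  rw [← Finset.sum_add_distrib]
  refine Finset.sum_congr rfl fun a _ => ?_
  rw [← Finset.sum_add_distrib]
  refine Finset.sum_congr rfl fun b _ => ?_
  rw [Matrix.mul_add, Matrix.add_mul, smul_add]

theorem sand_smul_arg (R : SpecRes A) (φ : ℝ → ℝ → ℝ) (c : ℝ) (ξ : Matrix Y Y ℝ) :
    R.sand φ (c • ξ) = c • R.sand φ ξ := by
  unfold sand
  rw [Finset.smul_sum]
  refine Finset.sum_congr rfl fun a _ => ?_
  rw [Finset.smul_sum]
  refine Finset.sum_congr rfl fun b _ => ?_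
  rw [Matrix.mul_smul, Matrix.smul_mul, smul_comm]

/-- left multiplication by a matrix commuting with `A` passes through the sandwich -/
theorem sand_mul_left (R : SpecRes A) (φ : ℝ → ℝ → ℝ) {G : Matrix Y Y ℝ} (h : G * A = A * G)
    (ξ : Matrix Y Y ℝ) : R.sand φ (G * ξ) = G * R.sand φ ξ := by
  unfold sand
  rw [Finset.mul_sum]
  refine Finset.sum_congr rfl fun a _ => ?_
  rw [Finset.mul_sum]
  refine Finset.sum_congr rfl fun b _ => ?_
  rw [Matrix.mul_smul, ← Matrix.mul_assoc (R.P a), ← R.commute_P h a]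
  simp only [Matrix.mul_assoc]

theorem sand_mul_right (R : SpecRes A) (φ : ℝ → ℝ → ℝ) {G : Matrix Y Y ℝ} (h : G * A = A * G)
    (ξ : Matrix Y Y ℝ) : R.sand φ (ξ * G) = R.sand φ ξ * G := by
  unfold sand
  rw [Finset.sum_mul]
  refine Finset.sum_congr rfl fun a _ => ?_
  rw [Finset.sum_mul]
  refine Finset.sum_congr rfl fun b _ => ?_
  rw [Matrix.smul_mul, Matrix.mul_assoc _ (R.P b) G, ← R.commute_P h b]
  simp only [Matrix.mul_assoc]

/-- the basic trace identity for two commuting resolutions -/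
theorem hs_corner (R : SpecRes A) (R' : SpecRes B) (hAB : A * B = B * A) (ξ η : Matrix Y Y ℝ)
    (a b a' b' : ℝ) :
    hs (R.P a * ξ * R.P b) (R'.P a' * η * R'.P b')
      = hs (R.P a * R'.P a' * ξ * (R.P b * R'.P b')) (R.P a * R'.P a' * η * (R.P b * R'.P b')) := by
  have hc : ∀ x y, R.P x * R'.P y = R'.P y * R.P x := by
    intro x y
    have h1 : R.P x * B = B * R.P x := (R.commute_P hAB.symm x).symm
    exact R'.commute_P h1 y
  unfold hs
  simp only [Matrix.transpose_mul, R.symm, R'.symm]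
  have e1 : (R.P b * (ξᵀ * R.P a) * (R'.P a' * η * R'.P b')).trace
      = (R'.P b' * R.P b * ξᵀ * (R.P a * R'.P a') * η).trace := by
    calc (R.P b * (ξᵀ * R.P a) * (R'.P a' * η * R'.P b')).trace
        = ((R.P b * ξᵀ * (R.P a * R'.P a') * η) * R'.P b').trace := by
          simp only [Matrix.mul_assoc]
      _ = (R'.P b' * (R.P b * ξᵀ * (R.P a * R'.P a') * η)).trace := Matrix.trace_mul_comm _ _
      _ = _ := by simp only [Matrix.mul_assoc]
  have e2 : (R'.P b' * R.P b * (ξᵀ * (R'.P a' * R.P a)) *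
        (R.P a * R'.P a' * η * (R.P b * R'.P b'))).trace
      = (R'.P b' * R.P b * ξᵀ * (R.P a * R'.P a') * η).trace := by
    have i1 : R'.P a' * R.P a * (R.P a * R'.P a') = R.P a * R'.P a' := by
      calc R'.P a' * R.P a * (R.P a * R'.P a') = R'.P a' * (R.P a * R.P a) * R'.P a' := by
            simp only [Matrix.mul_assoc]
        _ = R'.P a' * R.P a * R'.P a' := by rw [R.idem]
        _ = R.P a * (R'.P a' * R'.P a') := by rw [← hc, Matrix.mul_assoc]
        _ = _ := by rw [R'.idem]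
    have i2 : R.P b * R'.P b' * (R'.P b' * R.P b) = R'.P b' * R.P b := by
      calc R.P b * R'.P b' * (R'.P b' * R.P b) = R.P b * (R'.P b' * R'.P b') * R.P b := by
            simp only [Matrix.mul_assoc]
        _ = R.P b * R'.P b' * R.P b := by rw [R'.idem]
        _ = R'.P b' * (R.P b * R.P b) := by rw [hc, Matrix.mul_assoc]
        _ = _ := by rw [R.idem]
    calc (R'.P b' * R.P b * (ξᵀ * (R'.P a' * R.P a)) *
          (R.P a * R'.P a' * η * (R.P b * R'.P b'))).trace
        = ((R'.P b' * R.P b * ξᵀ * (R'.P a' * R.P a * (R.P a * R'.P a')) * η) *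
            (R.P b * R'.P b')).trace := by simp only [Matrix.mul_assoc]
      _ = ((R.P b * R'.P b') *
            (R'.P b' * R.P b * ξᵀ * (R'.P a' * R.P a * (R.P a * R'.P a')) * η)).trace :=
          Matrix.trace_mul_comm _ _
      _ = ((R.P b * R'.P b' * (R'.P b' * R.P b)) * ξᵀ *
            (R'.P a' * R.P a * (R.P a * R'.P a')) * η).trace := by simp only [Matrix.mul_assoc]
      _ = _ := by rw [i1, i2]
  rw [e1, e2]

/-- expansion of the inner product of two sandwiches for commuting matrices -/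
theorem hs_sand_sand (R : SpecRes A) (R' : SpecRes B) (hAB : A * B = B * A)
    (φ ψ : ℝ → ℝ → ℝ) (ξ η : Matrix Y Y ℝ) :
    hs (R.sand φ ξ) (R'.sand ψ η)
      = ∑ a ∈ R.S, ∑ b ∈ R.S, ∑ a' ∈ R'.S, ∑ b' ∈ R'.S, φ a b * ψ a' b' *
        hs (R.P a * R'.P a' * ξ * (R.P b * R'.P b')) (R.P a * R'.P a' * η * (R.P b * R'.P b')) := by
  unfold sand
  rw [hs_sum_left]
  refine Finset.sum_congr rfl fun a _ => ?_
  rw [hs_sum_left]
  refine Finset.sum_congr rfl fun b _ => ?_
  rw [hs_sum_right]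
  refine Finset.sum_congr rfl fun a' _ => ?_
  rw [hs_sum_right]
  refine Finset.sum_congr rfl fun b' _ => ?_
  rw [hs_smul_left, hs_smul_right, hs_corner R R' hAB]
  ring

/-- expansion of the inner product of two sandwiches for one resolution -/
theorem hs_sand_sand_self (R : SpecRes A) (φ ψ : ℝ → ℝ → ℝ) (ξ η : Matrix Y Y ℝ) :
    hs (R.sand φ ξ) (R.sand ψ η)
      = ∑ a ∈ R.S, ∑ b ∈ R.S, φ a b * ψ a b * hs (R.P a * ξ * R.P b) (R.P a * η * R.P b) := by
  rw [hs_sand_sand R R rfl]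
  refine Finset.sum_congr rfl fun a ha => ?_
  refine Finset.sum_congr rfl fun b hb => ?_
  rw [Finset.sum_eq_single_of_mem a ha, Finset.sum_eq_single_of_mem b hb]
  · rw [R.idem, R.idem]
  · intro b' _ hne
    rw [R.orth b b' (Ne.symm hne)]
    simp [hs_zero_left]
  · intro a' _ hne
    refine Finset.sum_eq_zero fun b' _ => ?_
    rw [R.orth a a' (Ne.symm hne)]
    simp [hs_zero_left]

/-- `|ad A| ξ = ∑ |a - b| P_a ξ P_b` -/
def absAd (R : SpecRes A) (ξ : Matrix Y Y ℝ) : Matrix Y Y ℝ := R.sand (fun a b => |a - b|) ξ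

theorem absAd_add (R : SpecRes A) (ξ η : Matrix Y Y ℝ) :
    R.absAd (ξ + η) = R.absAd ξ + R.absAd η := R.sand_add_arg _ ξ η

theorem absAd_smul (R : SpecRes A) (c : ℝ) (ξ : Matrix Y Y ℝ) :
    R.absAd (c • ξ) = c • R.absAd ξ := R.sand_smul_arg _ c ξ

theorem absAd_mul_left (R : SpecRes A) {G : Matrix Y Y ℝ} (h : G * A = A * G)
    (ξ : Matrix Y Y ℝ) : R.absAd (G * ξ) = G * R.absAd ξ := R.sand_mul_left _ h ξ

theorem absAd_mul_right (R : SpecRes A) {G : Matrix Y Y ℝ} (h : G * A = A * G)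
    (ξ : Matrix Y Y ℝ) : R.absAd (ξ * G) = R.absAd ξ * G := R.sand_mul_right _ h ξ

theorem hs_absAd_eq (R : SpecRes A) (ξ η : Matrix Y Y ℝ) :
    hs (R.absAd ξ) η
      = ∑ a ∈ R.S, ∑ b ∈ R.S, |a - b| * hs (R.P a * ξ * R.P b) (R.P a * η * R.P b) := by
  conv_lhs => rw [← R.sand_one η]
  unfold absAd
  rw [hs_sand_sand_self]
  simp only [mul_one]

/-- `|ad A|` is symmetric -/
theorem hs_absAd_symm (R : SpecRes A) (ξ η : Matrix Y Y ℝ) :
    hs (R.absAd ξ) η = hs ξ (R.absAd η) := by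
  rw [hs_comm ξ, hs_absAd_eq, hs_absAd_eq]
  refine Finset.sum_congr rfl fun a _ => Finset.sum_congr rfl fun b _ => ?_
  rw [hs_comm]

/-- `|ad A|` is positive semidefinite -/
theorem hs_absAd_nonneg (R : SpecRes A) (ξ : Matrix Y Y ℝ) : 0 ≤ hs (R.absAd ξ) ξ := by
  rw [hs_absAd_eq]
  exact Finset.sum_nonneg fun a _ => Finset.sum_nonneg fun b _ =>
    mul_nonneg (abs_nonneg _) (hs_self_nonneg _)

/-- the kernel of the form of `|ad A|` is the commutant of `A` -/
theorem commute_of_hs_absAd_eq_zero (R : SpecRes A) (ξ : Matrix Y Y ℝ)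
    (h : hs (R.absAd ξ) ξ = 0) : A * ξ = ξ * A := by
  rw [hs_absAd_eq] at h
  have h1 : ∀ a ∈ R.S, ∀ b ∈ R.S,
      |a - b| * hs (R.P a * ξ * R.P b) (R.P a * ξ * R.P b) = 0 := by
    intro a ha b hb
    have h2 := (Finset.sum_eq_zero_iff_of_nonneg (fun a _ => Finset.sum_nonneg fun b _ =>
      mul_nonneg (abs_nonneg (a - b)) (hs_self_nonneg (R.P a * ξ * R.P b)))).1 h a ha
    exact (Finset.sum_eq_zero_iff_of_nonneg (fun b _ =>
      mul_nonneg (abs_nonneg (a - b)) (hs_self_nonneg (R.P a * ξ * R.P b)))).1 h2 b hb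
  have h3 : A * ξ - ξ * A = 0 := by
    rw [← R.sand_comm]
    unfold sand
    refine Finset.sum_eq_zero fun a ha => Finset.sum_eq_zero fun b hb => ?_
    rcases mul_eq_zero.1 (h1 a ha b hb) with h4 | h4
    · show (a - b) • (R.P a * ξ * R.P b) = 0
      rw [abs_eq_zero.1 h4, zero_smul]
    · rw [hs_self_eq_zero h4, smul_zero]
  exact sub_eq_zero.1 h3

/-- the range of `|ad A|` is orthogonal to the commutant of `A` -/
theorem hs_absAd_of_commute (R : SpecRes A) {G : Matrix Y Y ℝ} (h : G * A = A * G)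
    (ξ : Matrix Y Y ℝ) : hs (R.absAd ξ) G = 0 := by
  rw [hs_absAd_eq]
  refine Finset.sum_eq_zero fun a _ => Finset.sum_eq_zero fun b _ => ?_
  by_cases hab : a = b
  · rw [hab, sub_self, abs_zero, zero_mul]
  · rw [R.corner_eq_zero h hab, hs_zero_right, mul_zero]

/-- `| |ad A| ξ | = | [A, ξ] |` -/
theorem hs_absAd_self (R : SpecRes A) (ξ : Matrix Y Y ℝ) :
    hs (R.absAd ξ) (R.absAd ξ) = hs (A * ξ - ξ * A) (A * ξ - ξ * A) := by
  rw [← R.sand_comm]
  unfold absAd
  rw [hs_sand_sand_self, hs_sand_sand_self]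
  refine Finset.sum_congr rfl fun a _ => Finset.sum_congr rfl fun b _ => ?_
  rw [abs_mul_abs_self]

/-- for commuting `A`, `B`: `<|ad A| ξ, |ad B| ξ> ≥ <[A, ξ], [B, ξ]>` -/
theorem hs_comm_le_hs_absAd (R : SpecRes A) (R' : SpecRes B) (hAB : A * B = B * A)
    (ξ : Matrix Y Y ℝ) :
    hs (A * ξ - ξ * A) (B * ξ - ξ * B) ≤ hs (R.absAd ξ) (R'.absAd ξ) := by
  rw [← R.sand_comm, ← R'.sand_comm]
  unfold absAd
  rw [hs_sand_sand R R' hAB, hs_sand_sand R R' hAB]
  refine Finset.sum_le_sum fun a _ => Finset.sum_le_sum fun b _ => Finset.sum_le_sum fun a' _ =>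
    Finset.sum_le_sum fun b' _ => ?_
  refine mul_le_mul_of_nonneg_right ?_ (hs_self_nonneg _)
  rw [← abs_mul]
  exact le_abs_self _

end SpecRes

end P328JS2
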