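import Vale.Agent.Lib.P328.JS2.AbsAd
import Vale.Agent.Lib.P335.Hilbert

/-!
# P328 (JS): auxiliary lemmas for the abstract operator inequality
-/

namespace P328JS2

open P335 Finset Matrix

variable {Y : Type*} [Fintype Y] [DecidableEq Y]

theorem hs_diagonal_right (M : Matrix Y Y ℝ) (h : Y → ℝ) :
    hs M (diagonal h) = ∑ x, M x x * h x := by
  rw [hs_eq_sum]
  refine Finset.sum_congr rfl fun x _ => ?_
  rw [Finset.sum_eq_single x]
  · rw [diagonal_apply_eq]
  · intro y _ hy
    rw [diagonal_apply_ne _ (Ne.symm hy), mul_zero]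
  · simp

theorem hs_diagonal_right' (M : Matrix Y Y ℝ) (h : Y → ℝ) :
    hs M (diagonal h) = dot (fun x => M x x) h := hs_diagonal_right M h

theorem commutator_apply (A : Matrix Y Y ℝ) (ξ : Y → ℝ) (x y : Y) :
    (A * diagonal ξ - diagonal ξ * A) x y = A x y * (ξ y - ξ x) := by
  rw [Matrix.sub_apply, Matrix.mul_diagonal, Matrix.diagonal_mul]
  ring

open Classical in
/-- indicator of the class of `x`, as a diagonal matrix -/
noncomputable def cind (r : Y → Y → Prop) (x : Y) : Matrix Y Y ℝ :=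
  diagonal (fun y => if r x y then 1 else 0)

theorem cind_commute {r : Y → Y → Prop} (hr : Equivalence r) {A : Matrix Y Y ℝ}
    (hA : ∀ x y, ¬ r x y → A x y = 0) (x : Y) : cind r x * A = A * cind r x := by
  classical
  ext u v
  unfold cind
  rw [Matrix.mul_diagonal, Matrix.diagonal_mul]
  by_cases huv : r u v
  · by_cases hxu : r x u
    · rw [if_pos hxu, if_pos (hr.trans hxu huv)]
      ring
    · rw [if_neg hxu, if_neg (fun h => hxu (hr.trans h (hr.symm huv)))]
      ring
  · rw [hA u v huv]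
    ring

theorem block_of_cind_commute {r : Y → Y → Prop} (hr : Equivalence r) {M : Matrix Y Y ℝ}
    (hM : ∀ x, cind r x * M = M * cind r x) : ∀ x y, ¬ r x y → M x y = 0 := by
  classical
  intro x y hxy
  have h := congrFun (congrFun (hM x) x) y
  unfold cind at h
  rw [Matrix.mul_diagonal, Matrix.diagonal_mul, if_pos (hr.refl x), if_neg hxy] at h
  simpa using h

theorem cind_diagonal_commute (r : Y → Y → Prop) (x : Y) (ξ : Y → ℝ) :
    cind r x * diagonal ξ = diagonal ξ * cind r x := by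
  unfold cind
  rw [Matrix.diagonal_mul_diagonal, Matrix.diagonal_mul_diagonal]
  congr 1
  funext i
  ring

theorem hs_cind (r : Y → Y → Prop) (x : Y) (M : Matrix Y Y ℝ) :
    hs M (cind r x) = ∑ y ∈ cls r x, M y y := by
  classical
  unfold cind
  rw [hs_diagonal_right]
  unfold cls
  rw [Finset.sum_filter]
  refine Finset.sum_congr rfl fun y _ => ?_
  split_ifs <;> simp

/-- the matrices `L_J` -/
theorem exists_L {Om OmT : Matrix Y Y ℝ} (hOm : Omᵀ = Om) (RT : SpecRes OmT)
    (hc : Om * OmT = OmT * Om) (X : Matrix Y Y ℝ) :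
    ∃ L : Matrix Y Y ℝ,
      (∀ G, G * Om = Om * G → hs L G = 0) ∧
      4 * hs L L = hs (Om * X - X * Om) (Om * X - X * Om) ∧
      hs (Om * X - X * Om) (OmT * X - X * OmT) ≤ 4 * hs L ((1 / 2 : ℝ) • RT.absAd X) ∧
      (∀ G, G * Om = Om * G → G * X = X * G → G * L = L * G) := by
  obtain ⟨R⟩ := exists_specRes Om hOm
  refine ⟨(1 / 2 : ℝ) • R.absAd X, ?_, ?_, ?_, ?_⟩
  · intro G hG
    rw [hs_smul_left, R.hs_absAd_of_commute hG, mul_zero]
  · rw [hs_smul_left, hs_smul_right, R.hs_absAd_self]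
    ring
  · rw [hs_smul_left, hs_smul_right]
    have := R.hs_comm_le_hs_absAd RT hc X
    linarith
  · intro G hG hGX
    rw [Matrix.mul_smul, Matrix.smul_mul, ← R.absAd_mul_left hG, ← R.absAd_mul_right hG, hGX]

/-- counting lemma: an off-diagonal position lies in a class of at most one relation -/
theorem sum_not_rel_ge {ι : Type*} (𝕁 : Finset ι) (R : ι → Y → Y → Prop)
    (hdisj : ∀ J ∈ 𝕁, ∀ J' ∈ 𝕁, J ≠ J' → ∀ x y, R J x y → R J' x y → x = y)
    (x y : Y) (hxy : x ≠ y) (c : ℝ) (hc : 0 ≤ c) :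
    ((𝕁.card : ℝ) - 1) * c ≤ ∑ J ∈ 𝕁, (open Classical in if R J x y then 0 else c) := by
  classical
  have h1 : (𝕁.filter fun J => R J x y).card ≤ 1 := by
    rw [Finset.card_le_one]
    intro J hJ J' hJ'
    rw [Finset.mem_filter] at hJ hJ'
    by_contra hne
    exact hxy (hdisj J hJ.1 J' hJ'.1 hne x y hJ.2 hJ'.2)
  have h2 : ∑ J ∈ 𝕁, (if R J x y then 0 else c) = ((𝕁.filter fun J => ¬ R J x y).card : ℝ) * c := by
    rw [← Finset.sum_filter_add_sum_filter_not 𝕁 (fun J => R J x y)]
    rw [Finset.sum_eq_zero, zero_add, Finset.sum_congr rfl (g := fun _ => c), Finset.sum_const,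
      nsmul_eq_mul]
    · intro J hJ
      rw [if_neg (Finset.mem_filter.1 hJ).2]
    · intro J hJ
      rw [if_pos (Finset.mem_filter.1 hJ).2]
  have h3 : (𝕁.filter fun J => R J x y).card + (𝕁.filter fun J => ¬ R J x y).card = 𝕁.card :=
    Finset.card_filter_add_card_filter_not _
  rw [h2]
  refine mul_le_mul_of_nonneg_right ?_ hc
  have h4 : ((𝕁.filter fun J => R J x y).card : ℝ) ≤ 1 := by exact_mod_cast h1
  have h5 : ((𝕁.filter fun J => R J x y).card : ℝ) + ((𝕁.filter fun J => ¬ R J x y).card : ℝ)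
      = (𝕁.card : ℝ) := by exact_mod_cast h3
  linarith

end P328JS2
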