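import Vale.Agent.Lib.P328.JS2.AbsLemmas
import Vale.Agent.Lib.P335.Avg

/-!
# P328 (JS): the abstract operator inequality

See `notes/P328/helper92_JS_PROOF.md`.
-/

namespace P328JS2

open P335 Finset Matrix

/-- solvability: there is a diagonal `ξ` with `diag ((1/2) |ad OmT| ξ) = -g` -/
theorem exists_xi {Y : Type*} [Fintype Y] [DecidableEq Y] {OmT : Matrix Y Y ℝ} (RT : SpecRes OmT)
    (hconn : ∀ ξ : Y → ℝ, (∀ x y, OmT x y ≠ 0 → ξ x = ξ y) → ∀ x y, ξ x = ξ y)
    (g : Y → ℝ) (hg : ∑ x, g x = 0) :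
    ∃ ξ : Y → ℝ, ∀ x, ((1 / 2 : ℝ) • RT.absAd (diagonal ξ)) x x = - g x := by
  let T : (Y → ℝ) →ₗ[ℝ] (Y → ℝ) :=
    { toFun := fun ξ x => ((1 / 2 : ℝ) • RT.absAd (diagonal ξ)) x x
      map_add' := by
        intro ξ η
        funext x
        have : (diagonal (ξ + η) : Matrix Y Y ℝ) = diagonal ξ + diagonal η :=
          (Matrix.diagonal_add ξ η).symm
        simp only [this, RT.absAd_add, smul_add, Matrix.add_apply, Pi.add_apply]
      map_smul' := by
        intro c ξ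
        funext x
        have : (diagonal (c • ξ) : Matrix Y Y ℝ) = c • diagonal ξ := (Matrix.diagonal_smul c ξ)
        simp only [this, RT.absAd_smul, Matrix.smul_apply, Pi.smul_apply, RingHom.id_apply,
          smul_eq_mul]
        ring }
  have hT : ∀ ξ h : Y → ℝ, dot (T ξ) h = (1 / 2 : ℝ) * hs (RT.absAd (diagonal ξ)) (diagonal h) := by
    intro ξ h
    rw [← hs_smul_left, hs_diagonal_right']
    rfl
  have hsym : ∀ f h, dot (T f) h = dot f (T h) := by
    intro f h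
    rw [dot_comm f, hT, hT, RT.hs_absAd_symm, hs_comm]
  have hker : ∀ k, T k = 0 → dot (-g) k = 0 := by
    intro k hk
    have h0 : hs (RT.absAd (diagonal k)) (diagonal k) = 0 := by
      have := hT k k
      rw [hk] at this
      have h0' : dot (0 : Y → ℝ) k = 0 := by simp [dot]
      rw [h0'] at this
      linarith
    have h1 := RT.commute_of_hs_absAd_eq_zero _ h0
    have h2 : ∀ x y, OmT x y ≠ 0 → k x = k y := by
      intro x y hxy
      have h3 := commutator_apply OmT k x y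
      rw [h1, sub_self, Matrix.zero_apply] at h3
      rcases mul_eq_zero.1 h3.symm with h4 | h4
      · exact absurd h4 hxy
      · linarith
    have h5 := hconn k h2
    rcases isEmpty_or_nonempty Y with hY | ⟨⟨x0⟩⟩
    · simp [dot]
    · unfold dot
      have : ∀ x ∈ (univ : Finset Y), (-g) x * k x = - (k x0 * g x) := by
        intro x _
        rw [h5 x x0, Pi.neg_apply]
        ring
      rw [Finset.sum_congr rfl this, Finset.sum_neg_distrib, ← Finset.mul_sum, hg]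
      simp
  obtain ⟨ξ, hξ⟩ := exists_preimage_of_orth_ker T hsym (-g) hker
  exact ⟨ξ, fun x => congrFun hξ x⟩

/-- The abstract inequality.  `Om J` symmetric, block diagonal along the classes of `R J`, commuting
with the symmetric `OmT`, whose off-diagonal part is `∑ Om J`; `OmT` irreducible.
`G J` block diagonal, commuting with `Om J` and `OmT`. -/
theorem abstract_JS {Y ι : Type*} [Fintype Y] [DecidableEq Y] (𝕁 : Finset ι) (_h2 : 2 ≤ 𝕁.card)
    (R : ι → Y → Y → Prop) (hR : ∀ J, Equivalence (R J))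
    (hdisj : ∀ J ∈ 𝕁, ∀ J' ∈ 𝕁, J ≠ J' → ∀ x y, R J x y → R J' x y → x = y)
    (Om : ι → Matrix Y Y ℝ) (OmT : Matrix Y Y ℝ)
    (hsymm : ∀ J ∈ 𝕁, (Om J).IsSymm) (hsymmT : OmT.IsSymm)
    (hblock : ∀ J ∈ 𝕁, ∀ x y, ¬ R J x y → Om J x y = 0)
    (hsum : ∀ x y, x ≠ y → OmT x y = ∑ J ∈ 𝕁, Om J x y)
    (hcomm : ∀ J ∈ 𝕁, Om J * OmT = OmT * Om J)
    (hconn : ∀ ξ : Y → ℝ, (∀ x y, OmT x y ≠ 0 → ξ x = ξ y) → ∀ x y, ξ x = ξ y)
    (g : Y → ℝ) (hg : ∑ x, g x = 0)
    (G : ι → Matrix Y Y ℝ)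
    (hGblock : ∀ J ∈ 𝕁, ∀ x y, ¬ R J x y → G J x y = 0)
    (hGJ : ∀ J ∈ 𝕁, G J * Om J = Om J * G J) (hGT : ∀ J ∈ 𝕁, G J * OmT = OmT * G J) :
    ∑ J ∈ 𝕁, dot (avg (R J) (g + fun x => G J x x)) (avg (R J) (g + fun x => G J x x))
      ≤ ((𝕁.card : ℝ) - 1) * dot g g + ∑ J ∈ 𝕁, ∑ x, ∑ y, G J x y ^ 2 := by
  classical
  obtain ⟨RT⟩ := exists_specRes OmT hsymmT
  obtain ⟨ξ, hξ⟩ := exists_xi RT hconn g hg
  obtain ⟨X, hX⟩ : ∃ X : Matrix Y Y ℝ, X = diagonal ξ := ⟨_, rfl⟩
  obtain ⟨LZ, hLZ⟩ : ∃ LZ : Matrix Y Y ℝ, LZ = (1 / 2 : ℝ) • RT.absAd X := ⟨_, rfl⟩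
  rw [← hX, ← hLZ] at hξ
  have hL : ∀ J, ∃ L : Matrix Y Y ℝ, J ∈ 𝕁 →
      (∀ G, G * Om J = Om J * G → hs L G = 0) ∧
      4 * hs L L = hs (Om J * X - X * Om J) (Om J * X - X * Om J) ∧
      hs (Om J * X - X * Om J) (OmT * X - X * OmT) ≤ 4 * hs L LZ ∧
      (∀ G, G * Om J = Om J * G → G * X = X * G → G * L = L * G) := by
    intro J
    by_cases hJ : J ∈ 𝕁
    · obtain ⟨L, h⟩ := exists_L (hsymm J hJ) RT (hcomm J hJ) X
      rw [← hLZ] at h
      exact ⟨L, fun _ => h⟩
    · exact ⟨0, fun h => absurd h hJ⟩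
  choose L hL using hL
  -- commutators
  have c1 : OmT * X - X * OmT = ∑ J ∈ 𝕁, (Om J * X - X * Om J) := by
    ext x y
    rw [Matrix.sum_apply, hX, commutator_apply]
    simp only [commutator_apply]
    by_cases hxy : x = y
    · subst hxy
      simp
    · rw [hsum x y hxy, Finset.sum_mul]
  have c2 : ∀ J ∈ 𝕁, ∀ J' ∈ 𝕁, J ≠ J' →
      hs (Om J * X - X * Om J) (Om J' * X - X * Om J') = 0 := by
    intro J hJ J' hJ' hne
    rw [hs_eq_sum]
    refine Finset.sum_eq_zero fun x _ => Finset.sum_eq_zero fun y _ => ?_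
    rw [hX, commutator_apply, commutator_apply]
    by_cases hxy : x = y
    · subst hxy
      simp
    · by_cases h1 : R J x y
      · have h3 : ¬ R J' x y := fun h3 => hxy (hdisj J hJ J' hJ' hne x y h1 h3)
        rw [hblock J' hJ' x y h3]
        ring
      · rw [hblock J hJ x y h1]
        ring
  have c3 : ∀ J ∈ 𝕁, hs (Om J * X - X * Om J) (OmT * X - X * OmT)
      = hs (Om J * X - X * Om J) (Om J * X - X * Om J) := by
    intro J hJ
    rw [c1, hs_sum_right, Finset.sum_eq_single_of_mem J hJ]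
    intro J' hJ' hne
    exact c2 J hJ J' hJ' (Ne.symm hne)
  have c4 : hs (OmT * X - X * OmT) (OmT * X - X * OmT)
      = ∑ J ∈ 𝕁, hs (Om J * X - X * Om J) (Om J * X - X * Om J) := by
    conv_lhs => rw [c1]
    rw [hs_sum_left, ← c1]
    exact Finset.sum_congr rfl c3
  have hZZ : 4 * hs LZ LZ = hs (OmT * X - X * OmT) (OmT * X - X * OmT) := by
    rw [hLZ, hs_smul_left, hs_smul_right, RT.hs_absAd_self]
    ring
  -- (ii)
  have hii : ∑ J ∈ 𝕁, hs (L J) (L J) + hs LZ LZ ≤ 2 * ∑ J ∈ 𝕁, hs (L J) LZ := by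
    have e1 : 4 * ∑ J ∈ 𝕁, hs (L J) (L J)
        = ∑ J ∈ 𝕁, hs (Om J * X - X * Om J) (Om J * X - X * Om J) := by
      rw [Finset.mul_sum]
      exact Finset.sum_congr rfl fun J hJ => (hL J hJ).2.1
    have e2 : ∑ J ∈ 𝕁, hs (Om J * X - X * Om J) (Om J * X - X * Om J)
        ≤ 4 * ∑ J ∈ 𝕁, hs (L J) LZ := by
      rw [Finset.mul_sum]
      refine Finset.sum_le_sum fun J hJ => ?_
      rw [← c3 J hJ]
      exact (hL J hJ).2.2.1
    rw [c4] at hZZ
    linarith
  -- off-diagonal part of LZ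
  obtain ⟨off, hoff⟩ : ∃ off : ℝ, off = ∑ x, ∑ y, (if x = y then 0 else LZ x y ^ 2) := ⟨_, rfl⟩
  have hZoff : hs LZ LZ = dot g g + off := by
    rw [hs_eq_sum, hoff]
    unfold dot
    rw [← Finset.sum_add_distrib]
    refine Finset.sum_congr rfl fun x _ => ?_
    have : ∀ y ∈ (univ : Finset Y), LZ x y * LZ x y
        = (if x = y then g x * g x else 0) + (if x = y then 0 else LZ x y ^ 2) := by
      intro y _
      by_cases hxy : x = y
      · subst hxy
        rw [if_pos rfl, if_pos rfl, hξ]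
        ring
      · rw [if_neg hxy, if_neg hxy]
        ring
    rw [Finset.sum_congr rfl this, Finset.sum_add_distrib, Finset.sum_ite_eq]
    simp
  -- block structure of L
  have hLblock : ∀ J ∈ 𝕁, ∀ x y, ¬ R J x y → L J x y = 0 := by
    intro J hJ
    refine block_of_cind_commute (hR J) fun x => ?_
    refine (hL J hJ).2.2.2 _ (cind_commute (hR J) (hblock J hJ) x) ?_
    rw [hX]
    exact cind_diagonal_commute _ _ _
  have hLavg : ∀ J ∈ 𝕁, avg (R J) (fun x => L J x x) = 0 := by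
    intro J hJ
    funext x
    unfold avg
    rw [← hs_cind, (hL J hJ).1 _ (cind_commute (hR J) (hblock J hJ) x)]
    simp
  -- the matrices M_J
  obtain ⟨k, hk⟩ : ∃ k : ι → Y → ℝ, k = fun J => avg (R J) (g + fun x => G J x x) := ⟨_, rfl⟩
  obtain ⟨M, hM⟩ : ∃ M : ι → Matrix Y Y ℝ, M = fun J => G J + L J - diagonal (k J) := ⟨_, rfl⟩
  have key : ∀ J ∈ 𝕁, hs (G J) (G J) - dot (k J) (k J)
      = hs (M J - LZ) (M J - LZ) - hs LZ LZ + 2 * hs (L J) LZ - hs (L J) (L J) := by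
    intro J hJ
    have f1 : hs (L J) (G J) = 0 := (hL J hJ).1 _ (hGJ J hJ)
    have f2 : hs LZ (G J) = 0 := by
      rw [hLZ, hs_smul_left, RT.hs_absAd_of_commute (hGT J hJ), mul_zero]
    have f3 : hs (G J) (diagonal (k J)) = dot (fun x => G J x x) (k J) := hs_diagonal_right' _ _
    have f4 : hs (L J) (diagonal (k J)) = 0 := by
      rw [hs_diagonal_right', hk]
      show dot (fun x => L J x x) (avg (R J) (g + fun x => G J x x)) = 0
      rw [← avg_symm (hR J), hLavg J hJ]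
      simp [dot]
    have f5 : hs LZ (diagonal (k J)) = - dot g (k J) := by
      rw [hs_diagonal_right]
      unfold dot
      rw [← Finset.sum_neg_distrib]
      refine Finset.sum_congr rfl fun x _ => ?_
      rw [hξ]
      ring
    have f6 : hs (diagonal (k J)) (diagonal (k J)) = dot (k J) (k J) := by
      rw [hs_diagonal_right']
      congr 1
      funext x
      rw [Matrix.diagonal_apply_eq]
    have f7 : dot g (k J) + dot (fun x => G J x x) (k J) = dot (k J) (k J) := by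
      rw [← dot_add_left, hk]
      exact (dot_avg_avg (hR J) _).symm
    have e : hs (M J - LZ) (M J - LZ) = hs (G J) (G J) + hs (L J) (L J)
        + hs (diagonal (k J)) (diagonal (k J)) + hs LZ LZ + 2 * hs (L J) (G J)
        - 2 * hs (G J) (diagonal (k J)) - 2 * hs LZ (G J) - 2 * hs (L J) (diagonal (k J))
        - 2 * hs (L J) LZ + 2 * hs LZ (diagonal (k J)) := by
      rw [hM]
      simp only [hs_sub_left, hs_sub_right, hs_add_left, hs_add_right]
      rw [hs_comm (G J) (L J), hs_comm (diagonal (k J)) (G J), hs_comm (diagonal (k J)) (L J),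
        hs_comm (G J) LZ, hs_comm LZ (L J), hs_comm (diagonal (k J)) LZ]
      ring
    rw [e, f1, f2, f3, f4, f5, f6]
    linarith
  -- lower bound for the sum of |M_J - LZ|^2
  have hlow : ((𝕁.card : ℝ) - 1) * off ≤ ∑ J ∈ 𝕁, hs (M J - LZ) (M J - LZ) := by
    have g1 : ∀ J ∈ 𝕁, ∑ x, ∑ y, (if x = y then 0 else (if R J x y then 0 else LZ x y ^ 2))
        ≤ hs (M J - LZ) (M J - LZ) := by
      intro J hJ
      rw [hs_eq_sum]
      refine Finset.sum_le_sum fun x _ => Finset.sum_le_sum fun y _ => ?_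
      by_cases hxy : x = y
      · rw [if_pos hxy]
        exact mul_self_nonneg _
      · rw [if_neg hxy]
        by_cases hr : R J x y
        · rw [if_pos hr]
          exact mul_self_nonneg _
        · rw [if_neg hr, hM]
          simp only [Matrix.sub_apply, Matrix.add_apply]
          rw [hGblock J hJ x y hr, hLblock J hJ x y hr, Matrix.diagonal_apply_ne _ hxy]
          apply le_of_eq
          ring
    refine le_trans ?_ (Finset.sum_le_sum g1)
    rw [Finset.sum_comm, hoff, Finset.mul_sum]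
    refine Finset.sum_le_sum fun x _ => ?_
    rw [Finset.sum_comm, Finset.mul_sum]
    refine Finset.sum_le_sum fun y _ => ?_
    by_cases hxy : x = y
    · simp [hxy]
    · simp only [if_neg hxy]
      exact sum_not_rel_ge 𝕁 R hdisj x y hxy _ (sq_nonneg _)
  -- conclusion
  have hsumkey : ∑ J ∈ 𝕁, hs (G J) (G J) - ∑ J ∈ 𝕁, dot (k J) (k J)
      = ∑ J ∈ 𝕁, hs (M J - LZ) (M J - LZ) - (𝕁.card : ℝ) * hs LZ LZ
        + 2 * ∑ J ∈ 𝕁, hs (L J) LZ - ∑ J ∈ 𝕁, hs (L J) (L J) := by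
    rw [← Finset.sum_sub_distrib, Finset.sum_congr rfl key]
    rw [Finset.sum_sub_distrib, Finset.sum_add_distrib, Finset.sum_sub_distrib, Finset.sum_const,
      nsmul_eq_mul, Finset.mul_sum]
  have hGG : ∀ J ∈ 𝕁, ∑ x, ∑ y, G J x y ^ 2 = hs (G J) (G J) := by
    intro J _
    rw [hs_eq_sum]
    exact Finset.sum_congr rfl fun x _ => Finset.sum_congr rfl fun y _ => sq _
  rw [Finset.sum_congr rfl hGG]
  have hkk : ∑ J ∈ 𝕁, dot (avg (R J) (g + fun x => G J x x)) (avg (R J) (g + fun x => G J x x))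
      = ∑ J ∈ 𝕁, dot (k J) (k J) := by
    rw [hk]
  rw [hkk]
  nlinarith [hsumkey, hii, hlow, hZoff]

end P328JS2
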