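import Vale.Agent.Lib.P328.RC.Defs

/-!
# P328 (JS), sl2 model: definitions

`Box t = ∏ [0, t j]`; site operators `Eo j`, `Fo j` (raising / lowering, mutually `dot`-adjoint),
diagonal operators `Dg φ`, pair Casimir `CJ J`, total operator `AT = FT * ET`,
all in the ring `Module.End ℝ (Box t → ℝ)`.
See `notes/P328/helper92_JS_PROOF.md`.
-/

namespace P328JS2

open P335 P328RC Finset

variable {κ : Type*} [Fintype κ]

/-- the box `∏ [0, t j]` -/
def Box (t : κ → ℕ) : Type _ := {x : κ → ℕ // ∀ j, x j ≤ t j}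

variable {t : κ → ℕ}

def Box.enc (x : Box t) : (j : κ) → Fin (t j + 1) := fun j => ⟨x.1 j, Nat.lt_succ_of_le (x.2 j)⟩

theorem Box.enc_injective : Function.Injective (Box.enc (t := t)) := by
  intro x y h
  apply Subtype.ext
  funext j
  have := congrArg (fun F => ((F j : Fin (t j + 1)) : ℕ)) h
  simpa [Box.enc] using this

open Classical in
noncomputable instance : Fintype (Box t) := Fintype.ofInjective Box.enc Box.enc_injective

open Classical in
noncomputable instance : DecidableEq (Box t) := fun _ _ => Classical.propDecidable _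

/-- inclusion of the two-row system in the box -/
def inc {s : ℕ} (a : Y2 t s) : Box t := ⟨a.1, a.2.1⟩

variable [DecidableEq κ]

/-- `x + e_j` (junk value `x` if `x j = t j`) -/
def up (j : κ) (x : Box t) : Box t :=
  ⟨Function.update x.1 j (min (x.1 j + 1) (t j)), by
    intro k
    by_cases h : k = j
    · subst h; simp
    · rw [Function.update_of_ne h]; exact x.2 k⟩

/-- `x - e_j` (junk value `x` if `x j = 0`) -/
def dn (j : κ) (x : Box t) : Box t :=
  ⟨Function.update x.1 j (x.1 j - 1), by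
    intro k
    by_cases h : k = j
    · subst h
      rw [Function.update_self]
      exact le_trans (Nat.sub_le _ _) (x.2 k)
    · rw [Function.update_of_ne h]; exact x.2 k⟩

/-- weight of `x → x + e_j`; vanishes if `x j = t j` -/
noncomputable def wE (j : κ) (x : Box t) : ℝ :=
  Real.sqrt (((x.1 j : ℝ) + 1) * ((t j : ℝ) - x.1 j))

/-- weight of `x → x - e_j`; vanishes if `x j = 0` -/
noncomputable def wF (j : κ) (x : Box t) : ℝ :=
  Real.sqrt ((x.1 j : ℝ) * ((t j : ℝ) - x.1 j + 1))

/-- `(Eo j f) x = wE j x * f (x + e_j)` -/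
noncomputable def Eo (j : κ) : Module.End ℝ (Box t → ℝ) where
  toFun f := fun x => wE j x * f (up j x)
  map_add' f g := by funext x; simp [mul_add]
  map_smul' a f := by funext x; simp; ring

/-- `(Fo j f) x = wF j x * f (x - e_j)` -/
noncomputable def Fo (j : κ) : Module.End ℝ (Box t → ℝ) where
  toFun f := fun x => wF j x * f (dn j x)
  map_add' f g := by funext x; simp [mul_add]
  map_smul' a f := by funext x; simp; ring

/-- diagonal operator -/
noncomputable def Dg (φ : Box t → ℝ) : Module.End ℝ (Box t → ℝ) where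
  toFun f := fun x => φ x * f x
  map_add' f g := by funext x; simp [mul_add]
  map_smul' a f := by funext x; simp; ring

@[simp] theorem Eo_apply (j : κ) (f : Box t → ℝ) (x : Box t) : Eo j f x = wE j x * f (up j x) := rfl
@[simp] theorem Fo_apply (j : κ) (f : Box t → ℝ) (x : Box t) : Fo j f x = wF j x * f (dn j x) := rfl
@[simp] theorem Dg_apply (φ f : Box t → ℝ) (x : Box t) : Dg φ f x = φ x * f x := rfl

/-- `h_J = (t_p + t_q)/2 - x_p - x_q` -/
noncomputable def hJ (J : κ × κ) (x : Box t) : ℝ :=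
  ((t J.1 : ℝ) + t J.2) / 2 - x.1 J.1 - x.1 J.2

noncomputable def EJ (J : κ × κ) : Module.End ℝ (Box t → ℝ) := Eo J.1 + Eo J.2
noncomputable def FJ (J : κ × κ) : Module.End ℝ (Box t → ℝ) := Fo J.1 + Fo J.2

/-- the pair Casimir -/
noncomputable def CJ (J : κ × κ) : Module.End ℝ (Box t → ℝ) :=
  FJ J * EJ J + Dg (fun x => hJ J x * (hJ J x + 1))

noncomputable def ET : Module.End ℝ (Box t → ℝ) := ∑ j, Eo j
noncomputable def FT : Module.End ℝ (Box t → ℝ) := ∑ j, Fo j
noncomputable def AT : Module.End ℝ (Box t → ℝ) := FT * ET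

/-- matrix entries of an operator -/
noncomputable def mat (A : Module.End ℝ (Box t → ℝ)) : Matrix (Box t) (Box t) ℝ :=
  LinearMap.toMatrix' A

/-- trace -/
noncomputable def tr (A : Module.End ℝ (Box t → ℝ)) : ℝ := ∑ x, mat A x x

/-- restriction of an operator to the two-row system -/
noncomputable def res (s : ℕ) (A : Module.End ℝ (Box t → ℝ)) : Matrix (Y2 t s) (Y2 t s) ℝ :=
  fun a b => mat A (inc a) (inc b)

/-- the `J`-chord with outside configuration `u` and level `b = x_p + x_q` -/
noncomputable def chordSet (J : κ × κ) (u : κ → ℕ) (b : ℕ) : Finset (Box t) :=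
  univ.filter (fun x => (∀ k, k ≠ J.1 → k ≠ J.2 → x.1 k = u k) ∧ x.1 J.1 + x.1 J.2 = b)

open Classical in
/-- indicator of the chord -/
noncomputable def ind (J : κ × κ) (u : κ → ℕ) (b : ℕ) : Box t → ℝ :=
  fun x => if (∀ k, k ≠ J.1 → k ≠ J.2 → x.1 k = u k) ∧ x.1 J.1 + x.1 J.2 = b then 1 else 0

/-- latent level on the box -/
def lat (J : κ × κ) (x : Box t) : ℕ := min (x.1 J.1) (t J.2 - x.1 J.2)

/-- Casimir eigenvalue of level `σ`: `(T/2 - σ)(T/2 - σ + 1)`, `T = t_p + t_q` -/
noncomputable def om (t : κ → ℕ) (J : κ × κ) (σ : ℕ) : ℝ :=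
  (((t J.1 : ℝ) + t J.2) / 2 - σ) * (((t J.1 : ℝ) + t J.2) / 2 - σ + 1)

end P328JS2
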