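import Mathlib

/-!
# P328 (JS): abstract sl2 relations in a ring and the Casimir element
-/

namespace P328JS2

variable {R : Type*} [Ring R]

/-- an sl2 triple: `[e,f] = 2h`, `[h,e] = e`, `[h,f] = -f` -/
structure Sl2 (e f h : R) : Prop where
  ef : e * f = f * e + (h + h)
  he : h * e = e * h + e
  hf : h * f = f * h - f

/-- the Casimir element `f e + h (h + 1)` -/
def cas (e f h : R) : R := f * e + h * (h + 1)

theorem Sl2.cas_comm_e {e f h : R} (H : Sl2 e f h) : cas e f h * e = e * cas e f h := by
  have h1 : e * f * e = f * e * e + (h + h) * e := by rw [H.ef, add_mul]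
  have h2 : e * h = h * e - e := by rw [H.he]; abel
  have h3 : e * h * h = h * h * e - (h * e + h * e) + e := by
    rw [h2, sub_mul, mul_assoc h e h, h2]
    noncomm_ring
  unfold cas
  have : e * (f * e + h * (h + 1)) = e * f * e + e * h * h + e * h := by noncomm_ring
  rw [this, h1, h3, h2]
  noncomm_ring

theorem Sl2.cas_comm_h {e f h : R} (H : Sl2 e f h) : cas e f h * h = h * cas e f h := by
  have h1 : h * f * e = f * e * h := by
    rw [H.hf, sub_mul, mul_assoc f h e, H.he]
    noncomm_ring
  unfold cas
  have : h * (f * e + h * (h + 1)) = h * f * e + h * (h * (h + 1)) := by noncomm_ring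
  rw [this, h1]
  noncomm_ring

theorem Sl2.cas_comm_f {e f h : R} (H : Sl2 e f h) : cas e f h * f = f * cas e f h := by
  have h1 : f * e * f = f * f * e + f * (h + h) := by rw [mul_assoc, H.ef]; noncomm_ring
  have h2 : h * f = f * h - f := H.hf
  have h3 : h * h * f = f * h * h - (f * h + f * h) + f := by
    rw [mul_assoc h h f, h2, mul_sub, ← mul_assoc h f h, h2]
    noncomm_ring
  unfold cas
  have : (f * e + h * (h + 1)) * f = f * e * f + h * h * f + h * f := by noncomm_ring
  rw [this, h1, h3, h2]
  noncomm_ring

/-- the sum of two commuting sl2 triples is an sl2 triple -/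
theorem Sl2.add {e f h e' f' h' : R} (H : Sl2 e f h) (H' : Sl2 e' f' h')
    (c1 : e * f' = f' * e) (c2 : e' * f = f * e') (c3 : h * e' = e' * h) (c4 : h' * e = e * h')
    (c5 : h * f' = f' * h) (c6 : h' * f = f * h') : Sl2 (e + e') (f + f') (h + h') where
  ef := by
    have : (e + e') * (f + f') = e * f + e * f' + e' * f + e' * f' := by noncomm_ring
    rw [this, H.ef, H'.ef, c1, c2]; noncomm_ring
  he := by
    have : (h + h') * (e + e') = h * e + h * e' + h' * e + h' * e' := by noncomm_ring
    rw [this, H.he, H'.he, c3, c4]; noncomm_ring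
  hf := by
    have : (h + h') * (f + f') = h * f + h * f' + h' * f + h' * f' := by noncomm_ring
    rw [this, H.hf, H'.hf, c5, c6]; noncomm_ring

end P328JS2
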