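import Vale.Agent.Lib.P328.JS2.Site
import Vale.Agent.Lib.P328.JS2.Sl2

/-!
# P328 (JS), sl2 model, B2: the pair Casimir commutes with `AT`
Ring computations in `Module.End ℝ (Box t → ℝ)` from the relations of `Site.lean`.
-/

namespace P328JS2

open P335 P328RC Finset

section
variable {κ : Type*} [Fintype κ] [DecidableEq κ] {t : κ → ℕ}

theorem up_self_lt {j : κ} {x : Box t} (h : x.1 j < t j) : (up j x).1 j = x.1 j + 1 := by
  simp only [up, Function.update_self]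
  omega

theorem up_ne {j k : κ} (h : k ≠ j) (x : Box t) : (up j x).1 k = x.1 k := by
  simp only [up, Function.update_of_ne h]

theorem dn_ne {j k : κ} (h : k ≠ j) (x : Box t) : (dn j x).1 k = x.1 k := by
  simp only [dn, Function.update_of_ne h]

theorem Dg_zero : Dg (fun _ : Box t => (0 : ℝ)) = 0 := by
  apply LinearMap.ext
  intro f
  funext x
  simp

/-- `E_J F_J = F_J E_J + Dg (2 h_J)` -/
theorem EJ_FJ {J : κ × κ} (hne : J.1 ≠ J.2) :
    (EJ J * FJ J : Module.End ℝ (Box t → ℝ)) = FJ J * EJ J + Dg (fun x => 2 * hJ J x) := by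
  have c1 : (Eo J.1 * Fo J.2 : Module.End ℝ (Box t → ℝ)) = Fo J.2 * Eo J.1 := Eo_Fo_comm hne
  have c2 : (Eo J.2 * Fo J.1 : Module.End ℝ (Box t → ℝ)) = Fo J.1 * Eo J.2 := Eo_Fo_comm hne.symm
  have e : (EJ J * FJ J : Module.End ℝ (Box t → ℝ))
      = Eo J.1 * Fo J.1 + Eo J.1 * Fo J.2 + Eo J.2 * Fo J.1 + Eo J.2 * Fo J.2 := by
    unfold EJ FJ; noncomm_ring
  have e' : (FJ J * EJ J : Module.End ℝ (Box t → ℝ))
      = Fo J.1 * Eo J.1 + Fo J.2 * Eo J.1 + Fo J.1 * Eo J.2 + Fo J.2 * Eo J.2 := by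
    unfold EJ FJ; noncomm_ring
  have d : (Dg (fun x : Box t => ((x.1 J.1 : ℝ) + 1) * ((t J.1 : ℝ) - x.1 J.1))
        + Dg (fun x : Box t => ((x.1 J.2 : ℝ) + 1) * ((t J.2 : ℝ) - x.1 J.2))
        : Module.End ℝ (Box t → ℝ))
      = Dg (fun x : Box t => (x.1 J.1 : ℝ) * ((t J.1 : ℝ) - x.1 J.1 + 1))
        + Dg (fun x : Box t => (x.1 J.2 : ℝ) * ((t J.2 : ℝ) - x.1 J.2 + 1))
        + Dg (fun x => 2 * hJ J x) := by
    rw [Dg_add, Dg_add, Dg_add]
    congr 1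
    funext x
    unfold hJ
    ring
  rw [e, e', c1, c2, Eo_Fo_self, Eo_Fo_self, Fo_Eo_self, Fo_Eo_self]
  have := d
  calc _ = (Dg (fun x : Box t => ((x.1 J.1 : ℝ) + 1) * ((t J.1 : ℝ) - x.1 J.1))
        + Dg (fun x : Box t => ((x.1 J.2 : ℝ) + 1) * ((t J.2 : ℝ) - x.1 J.2)))
        + (Fo J.2 * Eo J.1 + Fo J.1 * Eo J.2) := by abel
    _ = _ := by rw [d]; abel

theorem CJ_eq' {J : κ × κ} (hne : J.1 ≠ J.2) :
    (CJ J : Module.End ℝ (Box t → ℝ)) = EJ J * FJ J + Dg (fun x => hJ J x * (hJ J x - 1)) := by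
  rw [EJ_FJ hne, add_assoc, Dg_add]
  unfold CJ
  congr 2
  funext x
  ring

theorem dot_EJ (J : κ × κ) (f g : Box t → ℝ) : dot (EJ J f) g = dot f (FJ J g) := by
  unfold EJ FJ
  rw [LinearMap.add_apply, LinearMap.add_apply, dot_add_left, dot_add_right, dot_Eo, dot_Eo]

theorem dot_FJ (J : κ × κ) (f g : Box t → ℝ) : dot (FJ J f) g = dot f (EJ J g) := by
  rw [dot_comm, ← dot_EJ, dot_comm]

theorem CJ_symm (J : κ × κ) (f g : Box t → ℝ) : dot (CJ J f) g = dot f (CJ J g) := by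
  unfold CJ
  rw [LinearMap.add_apply, LinearMap.add_apply, dot_add_left, dot_add_right, dot_Dg,
    Module.End.mul_apply, Module.End.mul_apply, dot_FJ, dot_EJ]

theorem dot_ET (f g : Box t → ℝ) : dot (ET f) g = dot f (FT g) := by
  unfold ET FT
  rw [LinearMap.sum_apply, LinearMap.sum_apply, dot_sum_left, dot_sum_right]
  exact Finset.sum_congr rfl (fun j _ => dot_Eo j f g)

theorem dot_FT (f g : Box t → ℝ) : dot (FT f) g = dot f (ET g) := by
  rw [dot_comm, ← dot_ET, dot_comm]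

theorem AT_symm (f g : Box t → ℝ) : dot (AT f) g = dot f (AT g) := by
  unfold AT
  rw [Module.End.mul_apply, Module.End.mul_apply, dot_FT, dot_ET]

theorem hJ_up1 {J : κ × κ} (hne : J.1 ≠ J.2) {x : Box t} (h : x.1 J.1 < t J.1) :
    hJ J (up J.1 x) = hJ J x - 1 := by
  unfold hJ
  rw [up_self_lt h, up_ne hne.symm]
  push_cast
  ring

theorem hJ_up2 {J : κ × κ} (hne : J.1 ≠ J.2) {x : Box t} (h : x.1 J.2 < t J.2) :
    hJ J (up J.2 x) = hJ J x - 1 := by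
  unfold hJ
  rw [up_self_lt h, up_ne hne]
  push_cast
  ring

theorem hJ_dn1 {J : κ × κ} (hne : J.1 ≠ J.2) {x : Box t} (h : 0 < x.1 J.1) :
    hJ J (dn J.1 x) = hJ J x + 1 := by
  unfold hJ
  rw [dn_self, dn_ne hne.symm, Nat.cast_sub (by omega)]
  push_cast
  ring

theorem hJ_dn2 {J : κ × κ} (hne : J.1 ≠ J.2) {x : Box t} (h : 0 < x.1 J.2) :
    hJ J (dn J.2 x) = hJ J x + 1 := by
  unfold hJ
  rw [dn_self, dn_ne hne, Nat.cast_sub (by omega)]
  push_cast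
  ring

/-- the pair operators form an sl2 triple -/
theorem sl2_J {J : κ × κ} (hne : J.1 ≠ J.2) :
    Sl2 (EJ J : Module.End ℝ (Box t → ℝ)) (FJ J) (Dg (hJ J)) where
  ef := by
    rw [EJ_FJ hne, Dg_add]
    congr 2
    funext x
    ring
  he := by
    have h1 : (Dg (hJ J) * Eo J.1 : Module.End ℝ (Box t → ℝ))
        = Eo J.1 * Dg (fun x => hJ J x + 1) :=
      Dg_Eo J.1 _ _ (fun x hx => by rw [hJ_up1 hne hx]; ring)
    have h2 : (Dg (hJ J) * Eo J.2 : Module.End ℝ (Box t → ℝ))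
        = Eo J.2 * Dg (fun x => hJ J x + 1) :=
      Dg_Eo J.2 _ _ (fun x hx => by rw [hJ_up2 hne hx]; ring)
    have h3 : (Dg (fun x => hJ J x + 1) : Module.End ℝ (Box t → ℝ)) = Dg (hJ J) + 1 := by
      rw [← Dg_one, Dg_add]
    unfold EJ
    rw [mul_add, h1, h2, h3]
    noncomm_ring
  hf := by
    have h1 : (Dg (hJ J) * Fo J.1 : Module.End ℝ (Box t → ℝ))
        = Fo J.1 * Dg (fun x => hJ J x - 1) :=
      Dg_Fo J.1 _ _ (fun x hx => by rw [hJ_dn1 hne hx]; ring)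
    have h2 : (Dg (hJ J) * Fo J.2 : Module.End ℝ (Box t → ℝ))
        = Fo J.2 * Dg (fun x => hJ J x - 1) :=
      Dg_Fo J.2 _ _ (fun x hx => by rw [hJ_dn2 hne hx]; ring)
    have h3 : (Dg (fun x => hJ J x - 1) : Module.End ℝ (Box t → ℝ)) = Dg (hJ J) - 1 := by
      rw [eq_sub_iff_add_eq, ← Dg_one, Dg_add]
      congr 1
      funext x
      ring
    unfold FJ
    rw [mul_add, h1, h2, h3]
    simp only [mul_sub, mul_one, add_mul]
    abel

theorem CJ_eq_cas (J : κ × κ) :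
    (CJ J : Module.End ℝ (Box t → ℝ)) = cas (EJ J) (FJ J) (Dg (hJ J)) := by
  unfold CJ cas
  rw [← Dg_one, Dg_add, Dg_mul]

/-- `Dg (h(h+1)) E_J = Dg (2h) E_J + E_J Dg (h(h+1))` since `h (x + e) = h x - 1` -/
theorem CJ_comm_EJ {J : κ × κ} (hne : J.1 ≠ J.2) :
    Commute (CJ J : Module.End ℝ (Box t → ℝ)) (EJ J) := by
  rw [CJ_eq_cas]
  exact (sl2_J hne).cas_comm_e

theorem CJ_comm_FJ {J : κ × κ} (hne : J.1 ≠ J.2) :
    Commute (CJ J : Module.End ℝ (Box t → ℝ)) (FJ J) := by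
  rw [CJ_eq_cas]
  exact (sl2_J hne).cas_comm_f

theorem hJ_up_ne {J : κ × κ} {k : κ} (h1 : k ≠ J.1) (h2 : k ≠ J.2) (x : Box t) :
    hJ J (up k x) = hJ J x := by
  unfold hJ
  rw [up_ne h1.symm, up_ne h2.symm]

theorem hJ_dn_ne {J : κ × κ} {k : κ} (h1 : k ≠ J.1) (h2 : k ≠ J.2) (x : Box t) :
    hJ J (dn k x) = hJ J x := by
  unfold hJ
  rw [dn_ne h1.symm, dn_ne h2.symm]

theorem CJ_comm_Eo {J : κ × κ} {k : κ} (h1 : k ≠ J.1) (h2 : k ≠ J.2) :
    Commute (CJ J : Module.End ℝ (Box t → ℝ)) (Eo k) := by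
  unfold CJ FJ EJ
  refine Commute.add_left (Commute.mul_left ?_ ?_) ?_
  · exact Commute.add_left (Eo_Fo_comm h1).symm (Eo_Fo_comm h2).symm
  · exact Commute.add_left (Eo_comm _ _) (Eo_comm _ _)
  · exact Dg_Eo k _ _ (fun x _ => by rw [hJ_up_ne h1 h2])

theorem CJ_comm_Fo {J : κ × κ} {k : κ} (h1 : k ≠ J.1) (h2 : k ≠ J.2) :
    Commute (CJ J : Module.End ℝ (Box t → ℝ)) (Fo k) := by
  unfold CJ FJ EJ
  refine Commute.add_left (Commute.mul_left ?_ ?_) ?_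
  · exact Commute.add_left (Fo_comm _ _) (Fo_comm _ _)
  · exact Commute.add_left (Eo_Fo_comm h1.symm) (Eo_Fo_comm h2.symm)
  · exact Dg_Fo k _ _ (fun x _ => by rw [hJ_dn_ne h1 h2])

theorem sum_split {M : Type*} [AddCommMonoid M] {J : κ × κ} (hne : J.1 ≠ J.2) (a : κ → M) :
    ∑ j, a j = (a J.1 + a J.2) + ∑ j ∈ (univ.erase J.1).erase J.2, a j := by
  rw [← Finset.add_sum_erase univ a (mem_univ J.1),
    ← Finset.add_sum_erase (univ.erase J.1) a (Finset.mem_erase.2 ⟨hne.symm, mem_univ _⟩), add_assoc]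

/-- split `ET = E_J + ∑_{k ∉ J} Eo k` -/
theorem CJ_comm_ET {J : κ × κ} (hne : J.1 ≠ J.2) :
    Commute (CJ J : Module.End ℝ (Box t → ℝ)) ET := by
  unfold ET
  rw [sum_split hne]
  refine Commute.add_right (CJ_comm_EJ hne) (Commute.sum_right _ _ _ ?_)
  intro k hk
  rw [Finset.mem_erase, Finset.mem_erase] at hk
  exact CJ_comm_Eo hk.2.1 hk.1

theorem CJ_comm_FT {J : κ × κ} (hne : J.1 ≠ J.2) :
    Commute (CJ J : Module.End ℝ (Box t → ℝ)) FT := by
  unfold FT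
  rw [sum_split hne]
  refine Commute.add_right (CJ_comm_FJ hne) (Commute.sum_right _ _ _ ?_)
  intro k hk
  rw [Finset.mem_erase, Finset.mem_erase] at hk
  exact CJ_comm_Fo hk.2.1 hk.1

theorem CJ_comm_AT {J : κ × κ} (hne : J.1 ≠ J.2) :
    Commute (CJ J : Module.End ℝ (Box t → ℝ)) AT :=
  (CJ_comm_FT hne).mul_right (CJ_comm_ET hne)

/-- intertwining of the chord indicators -/
theorem EJ_ind (J : κ × κ) (hne : J.1 ≠ J.2) (u : κ → ℕ) (b : ℕ) :
    (Dg (ind J u b) * EJ J : Module.End ℝ (Box t → ℝ)) = EJ J * Dg (ind J u (b + 1)) := by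
  have h1 : (Dg (ind J u b) * Eo J.1 : Module.End ℝ (Box t → ℝ))
      = Eo J.1 * Dg (ind J u (b + 1)) := by
    refine Dg_Eo J.1 _ _ (fun x hx => ?_)
    unfold ind
    have e1 : (∀ k, k ≠ J.1 → k ≠ J.2 → (up J.1 x).1 k = u k)
        ↔ (∀ k, k ≠ J.1 → k ≠ J.2 → x.1 k = u k) :=
      forall_congr' (fun k => forall_congr' (fun hk => by rw [up_ne hk]))
    have e2 : (up J.1 x).1 J.1 + (up J.1 x).1 J.2 = b + 1 ↔ x.1 J.1 + x.1 J.2 = b := by
      rw [up_self_lt hx, up_ne hne.symm]; omega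
    simp only [e1, e2]
  have h2 : (Dg (ind J u b) * Eo J.2 : Module.End ℝ (Box t → ℝ))
      = Eo J.2 * Dg (ind J u (b + 1)) := by
    refine Dg_Eo J.2 _ _ (fun x hx => ?_)
    unfold ind
    have e1 : (∀ k, k ≠ J.1 → k ≠ J.2 → (up J.2 x).1 k = u k)
        ↔ (∀ k, k ≠ J.1 → k ≠ J.2 → x.1 k = u k) :=
      forall_congr' (fun k => forall_congr' (fun _ => forall_congr' (fun hk => by rw [up_ne hk])))
    have e2 : (up J.2 x).1 J.1 + (up J.2 x).1 J.2 = b + 1 ↔ x.1 J.1 + x.1 J.2 = b := by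
      rw [up_self_lt hx, up_ne hne]; omega
    simp only [e1, e2]
  unfold EJ
  rw [mul_add, add_mul, h1, h2]

theorem FJ_ind (J : κ × κ) (hne : J.1 ≠ J.2) (u : κ → ℕ) (b : ℕ) :
    (Dg (ind J u (b + 1)) * FJ J : Module.End ℝ (Box t → ℝ)) = FJ J * Dg (ind J u b) := by
  have h1 : (Dg (ind J u (b + 1)) * Fo J.1 : Module.End ℝ (Box t → ℝ))
      = Fo J.1 * Dg (ind J u b) := by
    refine Dg_Fo J.1 _ _ (fun x hx => ?_)
    unfold ind
    have e1 : (∀ k, k ≠ J.1 → k ≠ J.2 → (dn J.1 x).1 k = u k)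
        ↔ (∀ k, k ≠ J.1 → k ≠ J.2 → x.1 k = u k) :=
      forall_congr' (fun k => forall_congr' (fun hk => by rw [dn_ne hk]))
    have e2 : (dn J.1 x).1 J.1 + (dn J.1 x).1 J.2 = b ↔ x.1 J.1 + x.1 J.2 = b + 1 := by
      rw [dn_self, dn_ne hne.symm]; omega
    simp only [e1, e2]
  have h2 : (Dg (ind J u (b + 1)) * Fo J.2 : Module.End ℝ (Box t → ℝ))
      = Fo J.2 * Dg (ind J u b) := by
    refine Dg_Fo J.2 _ _ (fun x hx => ?_)
    unfold ind
    have e1 : (∀ k, k ≠ J.1 → k ≠ J.2 → (dn J.2 x).1 k = u k)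
        ↔ (∀ k, k ≠ J.1 → k ≠ J.2 → x.1 k = u k) :=
      forall_congr' (fun k => forall_congr' (fun _ => forall_congr' (fun hk => by rw [dn_ne hk])))
    have e2 : (dn J.2 x).1 J.1 + (dn J.2 x).1 J.2 = b ↔ x.1 J.1 + x.1 J.2 = b + 1 := by
      rw [dn_self, dn_ne hne]; omega
    simp only [e1, e2]
  unfold FJ
  rw [mul_add, add_mul, h1, h2]

theorem FJ_ind_zero (J : κ × κ) (u : κ → ℕ) :
    (Dg (ind J u 0) * FJ J : Module.End ℝ (Box t → ℝ)) = 0 := by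
  apply LinearMap.ext
  intro f
  funext x
  simp only [Module.End.mul_apply, Dg_apply, FJ, LinearMap.add_apply, Pi.add_apply, Fo_apply,
    LinearMap.zero_apply, Pi.zero_apply]
  unfold ind
  split_ifs with h
  · have h1 : x.1 J.1 = 0 := by omega
    have h2 : x.1 J.2 = 0 := by omega
    simp [wF, h1, h2]
  · simp

theorem EJ_ind_zero (J : κ × κ) (hne : J.1 ≠ J.2) (u : κ → ℕ) :
    (EJ J * Dg (ind J u 0) : Module.End ℝ (Box t → ℝ)) = 0 := by
  have h1 : (Dg (fun _ => 0) * Eo J.1 : Module.End ℝ (Box t → ℝ)) = Eo J.1 * Dg (ind J u 0) := by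
    refine Dg_Eo J.1 _ _ (fun x hx => ?_)
    unfold ind
    rw [if_neg]
    rintro ⟨_, h⟩
    rw [up_self_lt hx] at h
    omega
  have h2 : (Dg (fun _ => 0) * Eo J.2 : Module.End ℝ (Box t → ℝ)) = Eo J.2 * Dg (ind J u 0) := by
    refine Dg_Eo J.2 _ _ (fun x hx => ?_)
    unfold ind
    rw [if_neg]
    rintro ⟨_, h⟩
    rw [up_self_lt hx] at h
    omega
  unfold EJ
  rw [add_mul, ← h1, ← h2, Dg_zero, zero_mul, zero_mul, add_zero]

theorem CJ_comm_ind (J : κ × κ) (hne : J.1 ≠ J.2) (u : κ → ℕ) (b : ℕ) :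
    Commute (CJ J : Module.End ℝ (Box t → ℝ)) (Dg (ind J u b)) := by
  unfold CJ
  refine Commute.add_left ?_ (Dg_comm _ _)
  show FJ J * EJ J * Dg (ind J u b) = Dg (ind J u b) * (FJ J * EJ J)
  cases b with
  | zero =>
    rw [mul_assoc, EJ_ind_zero J hne, mul_zero, ← mul_assoc, FJ_ind_zero, zero_mul]
  | succ b =>
    rw [mul_assoc, ← EJ_ind J hne, ← mul_assoc, ← FJ_ind J hne, mul_assoc]

/-- on the chord of level `b` the diagonal part of `CJ` is `om t J b` -/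
theorem ind_mul_D (J : κ × κ) (u : κ → ℕ) (b : ℕ) :
    (Dg (ind J u b) * Dg (fun x => hJ J x * (hJ J x + 1)) : Module.End ℝ (Box t → ℝ))
      = om t J b • Dg (ind J u b) := by
  rw [Dg_mul, Dg_smul]
  congr 1
  funext x
  unfold ind
  split_ifs with h
  · have : ((x.1 J.1 : ℝ) + x.1 J.2) = b := by exact_mod_cast h.2
    have e : hJ J x = ((t J.1 : ℝ) + t J.2) / 2 - b := by
      unfold hJ; rw [← this]; ring
    rw [e]
    unfold om
    ring
  · simp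

/-- on the chord of level `b` the diagonal part of `CJ_eq'` is `om t J (b + 1)` -/
theorem ind_mul_D' (J : κ × κ) (u : κ → ℕ) (b : ℕ) :
    (Dg (ind J u b) * Dg (fun x => hJ J x * (hJ J x - 1)) : Module.End ℝ (Box t → ℝ))
      = om t J (b + 1) • Dg (ind J u b) := by
  rw [Dg_mul, Dg_smul]
  congr 1
  funext x
  unfold ind
  split_ifs with h
  · have : ((x.1 J.1 : ℝ) + x.1 J.2) = b := by exact_mod_cast h.2
    have e : hJ J x = ((t J.1 : ℝ) + t J.2) / 2 - b := by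
      unfold hJ; rw [← this]; ring
    rw [e]
    unfold om
    push_cast
    ring
  · simp

end


theorem sum_pr_symm {κ : Type*} [Fintype κ] [LinearOrder κ] {M : Type*} [AddCommMonoid M]
    (a : κ → κ → M) :
    ∑ j, ∑ k, a j k = ∑ J ∈ pr κ, (a J.1 J.2 + a J.2 J.1) + ∑ j, a j j := by
  rw [← Fintype.sum_prod_type' (f := a)]
  rw [← Finset.sum_filter_add_sum_filter_not univ (fun p : κ × κ => p.1 < p.2)]
  rw [← Finset.sum_filter_add_sum_filter_not (univ.filter (fun p : κ × κ => ¬ p.1 < p.2))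
    (fun p : κ × κ => p.2 < p.1)]
  rw [Finset.sum_add_distrib]
  have h1 : ∑ p ∈ (univ.filter (fun p : κ × κ => ¬ p.1 < p.2)).filter (fun p => p.2 < p.1),
      a p.1 p.2 = ∑ J ∈ pr κ, a J.2 J.1 := by
    refine Finset.sum_bij' (fun p _ => Prod.swap p) (fun p _ => Prod.swap p) ?_ ?_ ?_ ?_ ?_
    · intro p hp
      simp only [Finset.mem_filter, mem_univ, true_and] at hp
      simp [pr, hp.2]
    · intro p hp
      rw [mem_pr] at hp
      simp only [Finset.mem_filter, mem_univ, true_and, Prod.fst_swap, Prod.snd_swap]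
      exact ⟨not_lt.2 hp.le, hp⟩
    · intro p _; simp
    · intro p _; simp
    · intro p _; simp
  have h2 : ∑ p ∈ (univ.filter (fun p : κ × κ => ¬ p.1 < p.2)).filter (fun p => ¬ p.2 < p.1),
      a p.1 p.2 = ∑ j, a j j := by
    refine Finset.sum_bij' (fun p _ => p.1) (fun j _ => (j, j)) ?_ ?_ ?_ ?_ ?_
    · intro p _; exact mem_univ _
    · intro j _; simp
    · intro p hp
      simp only [Finset.mem_filter, mem_univ, true_and, not_lt] at hp
      exact Prod.ext rfl (le_antisymm hp.2 hp.1)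
    · intro j _; rfl
    · intro p hp
      simp only [Finset.mem_filter, mem_univ, true_and, not_lt] at hp
      rw [le_antisymm hp.2 hp.1]
  rw [h1, h2]
  unfold pr
  abel

section
variable {κ : Type*} [Fintype κ] [LinearOrder κ] {t : κ → ℕ}

/-- `∑_J F_J E_J = F_T E_T + (n-2) ∑_j F_j E_j`, so `∑ CJ - AT` is diagonal.
Generic fact: `∑_{J ∈ pr κ} (a J.1 J.2 + a J.2 J.1) = ∑_j ∑_{k ≠ j} a j k`. -/
theorem sum_CJ : ∃ φ : Box t → ℝ,
    ∑ J ∈ pr κ, (CJ J : Module.End ℝ (Box t → ℝ)) = AT + Dg φ := by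
  set b : κ → Box t → ℝ := fun j x => (x.1 j : ℝ) * ((t j : ℝ) - x.1 j + 1) with hb
  have hAT : (AT : Module.End ℝ (Box t → ℝ))
      = ∑ J ∈ pr κ, (Fo J.1 * Eo J.2 + Fo J.2 * Eo J.1) + ∑ j, Dg (b j) := by
    unfold AT FT ET
    rw [Finset.sum_mul_sum, sum_pr_symm (fun j k => (Fo j * Eo k : Module.End ℝ (Box t → ℝ)))]
    congr 1
    exact Finset.sum_congr rfl (fun j _ => Fo_Eo_self j)
  refine ⟨fun x => ∑ J ∈ pr κ, (b J.1 x + b J.2 x + hJ J x * (hJ J x + 1)) - ∑ j, b j x, ?_⟩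
  have hφ : (Dg (fun x => ∑ J ∈ pr κ, (b J.1 x + b J.2 x + hJ J x * (hJ J x + 1)) - ∑ j, b j x)
        + ∑ j, Dg (b j) : Module.End ℝ (Box t → ℝ))
      = ∑ J ∈ pr κ, (Dg (b J.1) + Dg (b J.2) + Dg (fun x => hJ J x * (hJ J x + 1))) := by
    rw [Dg_sum, Dg_add]
    have : ∀ J : κ × κ, (Dg (b J.1) + Dg (b J.2) + Dg (fun x => hJ J x * (hJ J x + 1))
        : Module.End ℝ (Box t → ℝ)) = Dg (fun x => b J.1 x + b J.2 x + hJ J x * (hJ J x + 1)) := by
      intro J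
      rw [Dg_add, Dg_add]
    rw [Finset.sum_congr rfl (fun J _ => this J), Dg_sum]
    congr 1
    funext x
    ring
  have hC : ∀ J : κ × κ, (CJ J : Module.End ℝ (Box t → ℝ))
      = (Fo J.1 * Eo J.2 + Fo J.2 * Eo J.1)
        + (Dg (b J.1) + Dg (b J.2) + Dg (fun x => hJ J x * (hJ J x + 1))) := by
    intro J
    unfold CJ FJ EJ
    rw [hb]
    simp only
    rw [← Fo_Eo_self, ← Fo_Eo_self]
    noncomm_ring
  rw [Finset.sum_congr rfl (fun J _ => hC J), Finset.sum_add_distrib, ← hφ, hAT]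
  abel

end

end P328JS2
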