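import Vale.Agent.Lib.P328.JS2.BoxDefs

/-!
# P328 (JS), sl2 model, B5: combinatorics of chords
The chord `(u, b)` is `{(i, b - i) : max 0 (b - t_q) ≤ i ≤ min b t_p}` (empty if `u` leaves the box),
`lat = i - (b - t_q)` runs over `range (κ b)`, `κ b = min (b, t_p, t_q, T - b) + 1` (`b ≤ T`).
-/

namespace P328JS2

open P335 P328RC Finset

variable {κ : Type*} [Fintype κ] [DecidableEq κ] {t : κ → ℕ}

/-- number of points of a chord of level `b` -/
def kap (t : κ → ℕ) (J : κ × κ) (b : ℕ) : ℕ :=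
  if b ≤ t J.1 + t J.2 then min (min b (t J.1)) (min (t J.2) (t J.1 + t J.2 - b)) + 1 else 0

theorem mem_chordSet {J : κ × κ} {u : κ → ℕ} {b : ℕ} {x : Box t} :
    x ∈ (chordSet J u b : Finset (Box t)) ↔
      (∀ k, k ≠ J.1 → k ≠ J.2 → x.1 k = u k) ∧ x.1 J.1 + x.1 J.2 = b := by
  simp [chordSet]

/-- the point of the chord `(u, b)` of latent level `σ` -/
def chordPt (J : κ × κ) (hne : J.1 ≠ J.2) (u : κ → ℕ) (hu : ∀ k, k ≠ J.1 → k ≠ J.2 → u k ≤ t k)
    (b σ : ℕ) (h : σ < kap t J b) : Box t :=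
  ⟨Function.update (Function.update u J.1 (σ + (b - t J.2))) J.2 (b - (σ + (b - t J.2))), by
    intro k
    unfold kap at h
    by_cases h2 : k = J.2
    · subst h2
      rw [Function.update_self]
      split_ifs at h <;> omega
    · rw [Function.update_of_ne h2]
      by_cases h1 : k = J.1
      · subst h1
        rw [Function.update_self]
        split_ifs at h <;> omega
      · rw [Function.update_of_ne h1]
        exact hu k h1 h2⟩

theorem sum_chord_eq {J : κ × κ} (hne : J.1 ≠ J.2) (u : κ → ℕ)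
    (hu : ∀ k, k ≠ J.1 → k ≠ J.2 → u k ≤ t k) (b : ℕ) (Φ : ℕ → ℝ) :
    ∑ x ∈ (chordSet J u b : Finset (Box t)), Φ (lat J x) = ∑ σ ∈ range (kap t J b), Φ σ := by
  refine Finset.sum_bij' (fun x _ => lat J x)
    (fun σ hσ => chordPt J hne u hu b σ (mem_range.mp hσ)) ?_ ?_ ?_ ?_ ?_
  · intro x hx
    rw [mem_chordSet] at hx
    have h1 := x.2 J.1
    have h2 := x.2 J.2
    rw [mem_range]
    unfold kap lat
    split_ifs <;> omega
  · intro σ hσ
    rw [mem_chordSet]
    have h := mem_range.mp hσ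
    unfold kap at h
    refine ⟨?_, ?_⟩
    · intro k h1 h2
      simp only [chordPt]
      rw [Function.update_of_ne h2, Function.update_of_ne h1]
    · simp only [chordPt]
      rw [Function.update_self, Function.update_of_ne hne, Function.update_self]
      split_ifs at h <;> omega
  · intro x hx
    rw [mem_chordSet] at hx
    have h1 := x.2 J.1
    have h2 := x.2 J.2
    apply Subtype.ext
    funext k
    simp only [chordPt]
    by_cases hk2 : k = J.2
    · subst hk2
      rw [Function.update_self]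
      unfold lat
      omega
    · rw [Function.update_of_ne hk2]
      by_cases hk1 : k = J.1
      · subst hk1
        rw [Function.update_self]
        unfold lat
        omega
      · rw [Function.update_of_ne hk1]
        exact (hx.1 k hk1 hk2).symm
  · intro σ hσ
    have h := mem_range.mp hσ
    unfold kap at h
    simp only [lat, chordPt]
    rw [Function.update_self, Function.update_of_ne hne, Function.update_self]
    split_ifs at h <;> omega
  · intro x _
    rfl

theorem chordSet_eq_empty {J : κ × κ} (u : κ → ℕ)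
    (hu : ¬ ∀ k, k ≠ J.1 → k ≠ J.2 → u k ≤ t k) (b : ℕ) :
    (chordSet J u b : Finset (Box t)) = ∅ := by
  rw [Finset.eq_empty_iff_forall_notMem]
  intro x hx
  rw [mem_chordSet] at hx
  apply hu
  intro k h1 h2
  rw [← hx.1 k h1 h2]
  exact x.2 k

theorem card_chordSet {J : κ × κ} (hne : J.1 ≠ J.2) (u : κ → ℕ)
    (hu : ∀ k, k ≠ J.1 → k ≠ J.2 → u k ≤ t k) (b : ℕ) :
    ((chordSet J u b : Finset (Box t)).card : ℝ) = kap t J b := by
  have h := sum_chord_eq (t := t) hne u hu b (fun _ => 1)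
  simpa using h

theorem sum_chord_step {J : κ × κ} (hne : J.1 ≠ J.2) (u : κ → ℕ) (b : ℕ) (Φ : ℕ → ℝ) (θ : ℝ)
    (h1 : b + 1 ≤ t J.1 → b + 1 ≤ t J.2 → Φ (b + 1) = θ)
    (h2 : t J.1 ≤ b → t J.2 ≤ b → b ≤ t J.1 + t J.2 → Φ (t J.1 + t J.2 - b) = θ) :
    ∑ x ∈ (chordSet J u (b + 1) : Finset (Box t)), Φ (lat J x)
        - ((chordSet J u (b + 1) : Finset (Box t)).card : ℝ) * θ
      = ∑ x ∈ (chordSet J u b : Finset (Box t)), Φ (lat J x)
        - ((chordSet J u b : Finset (Box t)).card : ℝ) * θ := by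
  by_cases hu : ∀ k, k ≠ J.1 → k ≠ J.2 → u k ≤ t k
  · rw [sum_chord_eq hne u hu, sum_chord_eq hne u hu, card_chordSet hne u hu,
      card_chordSet hne u hu]
    have key : (kap t J (b + 1) = kap t J b) ∨
        (kap t J (b + 1) = kap t J b + 1 ∧ kap t J b = b + 1 ∧ b + 1 ≤ t J.1 ∧ b + 1 ≤ t J.2) ∨
        (kap t J b = kap t J (b + 1) + 1 ∧ kap t J (b + 1) = t J.1 + t J.2 - b ∧ t J.1 ≤ b ∧
          t J.2 ≤ b ∧ b ≤ t J.1 + t J.2) := by
      unfold kap
      split_ifs <;> omega
    rcases key with h | ⟨h, h', ha, hb⟩ | ⟨h, h', ha, hb, hc⟩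
    · rw [h]
    · rw [h, Finset.sum_range_succ, h', h1 ha hb]
      push_cast
      ring
    · rw [h, Finset.sum_range_succ, h', h2 ha hb hc]
      push_cast
      ring
  · rw [chordSet_eq_empty u hu, chordSet_eq_empty u hu]

theorem sum_chord_zero (J : κ × κ) (u : κ → ℕ) (Φ : ℕ → ℝ) :
    ∑ x ∈ (chordSet J u 0 : Finset (Box t)), Φ (lat J x)
      = ((chordSet J u 0 : Finset (Box t)).card : ℝ) * Φ 0 := by
  have h : ∀ x ∈ (chordSet J u 0 : Finset (Box t)), Φ (lat J x) = Φ 0 := by
    intro x hx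
    rw [mem_chordSet] at hx
    have : lat J x = 0 := by
      unfold lat
      omega
    rw [this]
  rw [Finset.sum_congr rfl h, Finset.sum_const, nsmul_eq_mul]

/-- `om (T - b) = om (b + 1)` -/
theorem om_symm (J : κ × κ) (b : ℕ) (hb : b ≤ t J.1 + t J.2) :
    om t J (t J.1 + t J.2 - b) = om t J (b + 1) := by
  unfold om
  rw [Nat.cast_sub hb]
  push_cast
  ring

/-- `om` is injective on levels `≤ min t_p t_q` -/
theorem om_inj (J : κ × κ) {σ τ : ℕ} (h1 : σ ≤ t J.1) (_h2 : σ ≤ t J.2) (_h3 : τ ≤ t J.1)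
    (h4 : τ ≤ t J.2) (h : om t J σ = om t J τ) : σ = τ := by
  unfold om at h
  have e : ((τ : ℝ) - σ) * ((t J.1 : ℝ) + t J.2 + 1 - σ - τ) = 0 := by
    linear_combination h
  have c1 : (σ : ℝ) ≤ t J.1 := by exact_mod_cast h1
  have c4 : (τ : ℝ) ≤ t J.2 := by exact_mod_cast h4
  rcases mul_eq_zero.mp e with h0 | h0
  · have : (τ : ℝ) = σ := by linarith
    exact_mod_cast this.symm
  · exfalso
    linarith

/-- interpolation: a function of the latent level is a polynomial in the Casimir eigenvalue -/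
theorem exists_poly {s : ℕ} (J : κ × κ) (z : Y2 t s → ℝ)
    (hz : ∀ x y, lat2 J x = lat2 J y → z x = z y) :
    ∃ P : Polynomial ℝ, ∀ x : Y2 t s, P.eval (om t J (lat2 J x)) = z x := by
  classical
  set S : Finset ℕ := range (min (t J.1) (t J.2) + 1) with hS
  set r : ℕ → ℝ := fun σ => if h : ∃ x : Y2 t s, lat2 J x = σ then z h.choose else 0 with hr
  have hinj : Set.InjOn (om t J) (S : Set ℕ) := by
    intro σ hσ τ hτ h
    rw [hS, Finset.coe_range, Set.mem_Iio] at hσ hτ
    exact om_inj J (by omega) (by omega) (by omega) (by omega) h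
  refine ⟨Lagrange.interpolate S (om t J) r, ?_⟩
  intro x
  have hx : lat2 J x ∈ S := by
    rw [hS, mem_range]
    have := x.2.1 J.1
    unfold lat2
    omega
  rw [Lagrange.eval_interpolate_at_node r hinj hx]
  have hex : ∃ y : Y2 t s, lat2 J y = lat2 J x := ⟨x, rfl⟩
  simp only [hr, dif_pos hex]
  exact hz _ _ hex.choose_spec

theorem sum_split_pair {p q : κ} (hne : p ≠ q) (x : κ → ℕ) :
    ∑ j, x j = x p + x q + ∑ j ∈ (univ.erase p).erase q, x j := by
  rw [← Finset.add_sum_erase univ x (mem_univ p),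
    ← Finset.add_sum_erase (univ.erase p) x (by simp [hne.symm] : q ∈ univ.erase p)]
  ring

theorem sum_erase_congr {p q : κ} {x y : κ → ℕ} (h : ∀ k, k ≠ p → k ≠ q → x k = y k) :
    ∑ j ∈ (univ.erase p).erase q, x j = ∑ j ∈ (univ.erase p).erase q, y j := by
  apply Finset.sum_congr rfl
  intro k hk
  simp only [mem_erase, mem_univ, and_true] at hk
  exact h k hk.2 hk.1

/-- classes of `RJ J` in `Y2 t s` are chords of the box -/
theorem sum_cls_eq_chord {s : ℕ} {J : κ × κ} (hne : J.1 ≠ J.2) (a : Y2 t s) (F : Box t → ℝ) :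
    ∑ b ∈ cls (RJ J) a, F (inc b) = ∑ x ∈ chordSet J a.1 (a.1 J.1 + a.1 J.2), F x := by
  refine Finset.sum_bij (fun b _ => inc b) ?_ ?_ ?_ ?_
  · intro b hb
    have hb' : RJ J a b := mem_cls.mp hb
    rw [mem_chordSet]
    refine ⟨fun k h1 h2 => (hb' k h1 h2).symm, ?_⟩
    have e1 := sum_split_pair hne a.1
    have e2 := sum_split_pair hne b.1
    have e3 := sum_erase_congr (p := J.1) (q := J.2) (x := a.1) (y := b.1) hb'
    have e4 := a.2.2
    have e5 := b.2.2
    show b.1 J.1 + b.1 J.2 = _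
    omega
  · intro b _ b' _ h
    exact Subtype.ext (congrArg (fun w : Box t => w.1) h)
  · intro x hx
    rw [mem_chordSet] at hx
    have e1 := sum_split_pair hne a.1
    have e2 := sum_split_pair hne x.1
    have e3 := sum_erase_congr (p := J.1) (q := J.2) (x := x.1) (y := a.1) hx.1
    have e4 := a.2.2
    have hR : RJ J a (⟨x.1, x.2, by omega⟩ : Y2 t s) := fun k h1 h2 => (hx.1 k h1 h2).symm
    exact ⟨(⟨x.1, x.2, by omega⟩ : Y2 t s), mem_cls.mpr hR, rfl⟩
  · intro b _
    rfl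

end P328JS2
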