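import Vale.Agent.Lib.P335.Hilbert

/-!
# P328 (JS): absolute value of a `dot`-symmetric operator (finite-dimensional functional calculus)

For a `dot`-symmetric `S` on `Ω → ℝ` take an orthonormal eigenbasis `b i`, eigenvalues `λ i`
(as in `P335.dot_le_of_eigen`) and put `fc φ f = ∑ i, φ (λ i) * <b i, f> • b i`.
`A = fc |·|`, `Bp = fc (√ max(·,0))`, `Bm = fc (√ max(-·,0))`.
-/

namespace P328JS2

open P335 Finset

variable {Ω : Type*} [Fintype Ω]

/-- `dot`-symmetric operators -/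
def Symm (S : (Ω → ℝ) →ₗ[ℝ] (Ω → ℝ)) : Prop := ∀ f g, dot (S f) g = dot f (S g)

/-- `A` commutes with everything that commutes with `S` -/
def Bicomm (S A : (Ω → ℝ) →ₗ[ℝ] (Ω → ℝ)) : Prop :=
  ∀ T : (Ω → ℝ) →ₗ[ℝ] (Ω → ℝ), (∀ f, T (S f) = S (T f)) → ∀ f, T (A f) = A (T f)

/-- `A = |S|`, witnessed by square roots `Bp, Bm` of the positive and the negative part of `S` -/
structure IsAbs (S A : (Ω → ℝ) →ₗ[ℝ] (Ω → ℝ)) : Prop where
  symm : Symm A
  bicomm : Bicomm S A
  ker : ∀ f, S f = 0 → A f = 0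
  ker' : ∀ f, dot f (A f) = 0 → S f = 0
  parts : ∃ Bp Bm : (Ω → ℝ) →ₗ[ℝ] (Ω → ℝ), Symm Bp ∧ Symm Bm ∧ Bicomm S Bp ∧ Bicomm S Bm ∧
    (∀ f, Bp (Bm f) = 0) ∧
    (∀ f, A f = Bp (Bp f) + Bm (Bm f)) ∧ (∀ f, S f = Bp (Bp f) - Bm (Bm f))

/-- spectral data of a symmetric operator -/
theorem exists_eigenbasis (S : (Ω → ℝ) →ₗ[ℝ] (Ω → ℝ)) (hS : Symm S) :
    ∃ (n : ℕ) (β : Fin n → Ω → ℝ) (lam : Fin n → ℝ),
      (∀ i j, dot (β i) (β j) = if i = j then 1 else 0) ∧
      (∀ f, f = ∑ i, dot (β i) f • β i) ∧ (∀ i, S (β i) = lam i • β i) := by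
  have hT := lift_symm S hS
  set n := Module.finrank ℝ (EuclideanSpace ℝ Ω) with hn
  set b := hT.eigenvectorBasis hn.symm with hb
  refine ⟨n, fun i => WithLp.ofLp (b i), hT.eigenvalues hn.symm, ?_, ?_, ?_⟩
  · intro i j
    rw [← inner_eq_dot]
    exact (orthonormal_iff_ite.mp b.orthonormal) i j
  · intro f
    have h := congrArg WithLp.ofLp (b.sum_repr' (WithLp.toLp 2 f))
    simp only [WithLp.ofLp_sum, WithLp.ofLp_smul, inner_eq_dot] at h
    exact h.symm
  · intro i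
    rw [← ofLp_lift, hT.apply_eigenvectorBasis hn.symm i]
    rfl

section fc

variable {n : ℕ} (β : Fin n → Ω → ℝ) (lam : Fin n → ℝ)

/-- functional calculus in a given eigenbasis -/
noncomputable def fc (φ : ℝ → ℝ) : (Ω → ℝ) →ₗ[ℝ] (Ω → ℝ) where
  toFun f := ∑ i, (φ (lam i) * dot (β i) f) • β i
  map_add' f g := by
    rw [← Finset.sum_add_distrib]
    refine Finset.sum_congr rfl ?_
    intro i _
    rw [dot_add_right, mul_add, add_smul]
  map_smul' a f := by
    rw [Finset.smul_sum]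
    refine Finset.sum_congr rfl ?_
    intro i _
    rw [dot_smul_right, RingHom.id_apply, smul_smul]
    congr 1
    ring

theorem fc_apply (φ : ℝ → ℝ) (f : Ω → ℝ) :
    fc β lam φ f = ∑ i, (φ (lam i) * dot (β i) f) • β i := rfl

variable {β lam}

theorem dot_fc (hon : ∀ i j, dot (β i) (β j) = if i = j then 1 else 0) (φ : ℝ → ℝ) (f : Ω → ℝ)
    (j : Fin n) : dot (β j) (fc β lam φ f) = φ (lam j) * dot (β j) f := by
  rw [fc_apply, dot_sum_right]
  simp only [dot_smul_right, hon]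
  simp

theorem fc_fc (hon : ∀ i j, dot (β i) (β j) = if i = j then 1 else 0) (φ ψ : ℝ → ℝ) (f : Ω → ℝ) :
    fc β lam φ (fc β lam ψ f) = fc β lam (fun x => φ x * ψ x) f := by
  rw [fc_apply, fc_apply β lam (fun x => φ x * ψ x)]
  refine Finset.sum_congr rfl ?_
  intro i _
  rw [dot_fc hon, mul_assoc]

theorem fc_symm (φ : ℝ → ℝ) : Symm (fc β lam φ) := by
  intro f g
  rw [fc_apply, fc_apply, dot_sum_left, dot_sum_right]
  refine Finset.sum_congr rfl ?_
  intro i _
  rw [dot_smul_left, dot_smul_right, dot_comm f (β i)]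
  ring

theorem fc_congr {φ ψ : ℝ → ℝ} (h : ∀ x, φ x = ψ x) (f : Ω → ℝ) :
    fc β lam φ f = fc β lam ψ f := by
  rw [fc_apply, fc_apply]
  refine Finset.sum_congr rfl ?_
  intro i _
  rw [h]

theorem fc_add (φ ψ : ℝ → ℝ) (f : Ω → ℝ) :
    fc β lam (fun x => φ x + ψ x) f = fc β lam φ f + fc β lam ψ f := by
  rw [fc_apply, fc_apply, fc_apply, ← Finset.sum_add_distrib]
  refine Finset.sum_congr rfl ?_
  intro i _
  rw [add_mul, add_smul]

theorem fc_sub (φ ψ : ℝ → ℝ) (f : Ω → ℝ) :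
    fc β lam (fun x => φ x - ψ x) f = fc β lam φ f - fc β lam ψ f := by
  rw [fc_apply, fc_apply, fc_apply, ← Finset.sum_sub_distrib]
  refine Finset.sum_congr rfl ?_
  intro i _
  rw [sub_mul, sub_smul]

theorem fc_zero (f : Ω → ℝ) : fc β lam (fun _ => 0) f = 0 := by
  rw [fc_apply]
  simp

theorem fc_id {S : (Ω → ℝ) →ₗ[ℝ] (Ω → ℝ)} (hc : ∀ f, f = ∑ i, dot (β i) f • β i)
    (he : ∀ i, S (β i) = lam i • β i) (f : Ω → ℝ) : fc β lam (fun x => x) f = S f := by
  conv_rhs => rw [hc f]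
  rw [fc_apply, map_sum]
  refine Finset.sum_congr rfl ?_
  intro i _
  rw [map_smul, he, smul_smul, mul_comm]

/-- two functions with the same coefficients are equal -/
theorem ext_coeff (hc : ∀ f, f = ∑ i, dot (β i) f • β i) {f g : Ω → ℝ}
    (h : ∀ i, dot (β i) f = dot (β i) g) : f = g := by
  rw [hc f, hc g]
  refine Finset.sum_congr rfl ?_
  intro i _
  rw [h]

theorem fc_bicomm {S : (Ω → ℝ) →ₗ[ℝ] (Ω → ℝ)} (hS : Symm S)
    (hon : ∀ i j, dot (β i) (β j) = if i = j then 1 else 0)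
    (hc : ∀ f, f = ∑ i, dot (β i) f • β i)
    (he : ∀ i, S (β i) = lam i • β i) (φ : ℝ → ℝ) : Bicomm S (fc β lam φ) := by
  intro T hT f
  apply ext_coeff hc
  intro j
  rw [dot_fc hon, fc_apply, map_sum, dot_sum_right]
  conv_rhs => rw [hc f, map_sum, dot_sum_right, Finset.mul_sum]
  refine Finset.sum_congr rfl ?_
  intro i _
  rw [map_smul, map_smul, dot_smul_right, dot_smul_right]
  have h1 : (lam i - lam j) * dot (β j) (T (β i)) = 0 := by
    have a1 : dot (β j) (T (S (β i))) = lam i * dot (β j) (T (β i)) := by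
      rw [he, map_smul, dot_smul_right]
    have a2 : dot (β j) (S (T (β i))) = lam j * dot (β j) (T (β i)) := by
      rw [← hS, he, dot_smul_left]
    rw [hT] at a1
    rw [sub_mul, ← a1, ← a2, sub_self]
  rcases mul_eq_zero.mp h1 with h | h
  · have : lam i = lam j := by linarith
    rw [this]
    ring
  · rw [h]
    ring

end fc

theorem exists_isAbs (S : (Ω → ℝ) →ₗ[ℝ] (Ω → ℝ)) (hS : Symm S) : ∃ A, IsAbs S A := by
  obtain ⟨n, β, lam, hon, hc, he⟩ := exists_eigenbasis S hS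
  refine ⟨fc β lam (fun x => |x|), fc_symm _, fc_bicomm hS hon hc he _, ?_, ?_, ?_⟩
  · intro f hf
    rw [fc_apply]
    refine Finset.sum_eq_zero ?_
    intro i _
    have h1 : lam i * dot (β i) f = 0 := by
      have := dot_fc (lam := lam) hon (fun x => x) f i
      rw [fc_id hc he, hf] at this
      rw [← this]
      simp [dot]
    rcases mul_eq_zero.mp h1 with h | h
    · rw [h]; simp
    · rw [h]; simp
  · intro f hf
    rw [fc_apply, dot_sum_right] at hf
    have hterm : ∀ i ∈ (Finset.univ : Finset (Fin n)),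
        0 ≤ dot f ((|lam i| * dot (β i) f) • β i) := by
      intro i _
      rw [dot_smul_right, dot_comm f (β i)]
      have := abs_nonneg (lam i)
      nlinarith [mul_self_nonneg (dot (β i) f), mul_nonneg this (mul_self_nonneg (dot (β i) f))]
    have hz := (Finset.sum_eq_zero_iff_of_nonneg hterm).mp hf
    rw [← fc_id hc he, fc_apply]
    refine Finset.sum_eq_zero ?_
    intro i hi
    have h1 := hz i hi
    rw [dot_smul_right, dot_comm f (β i)] at h1
    have h2 : |lam i| = 0 ∨ dot (β i) f = 0 := by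
      rcases mul_eq_zero.mp h1 with h | h
      · exact mul_eq_zero.mp h
      · exact Or.inr h
    rcases h2 with h | h
    · rw [abs_eq_zero.mp h]; simp
    · rw [h]; simp
  · refine ⟨fc β lam (fun x => Real.sqrt (max x 0)), fc β lam (fun x => Real.sqrt (max (-x) 0)),
      fc_symm _, fc_symm _, fc_bicomm hS hon hc he _, fc_bicomm hS hon hc he _, ?_, ?_, ?_⟩
    · intro f
      rw [fc_fc hon, ← fc_zero (β := β) (lam := lam) f]
      apply fc_congr
      intro x
      rcases le_total x 0 with h | h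
      · rw [max_eq_right h]; simp
      · rw [max_eq_right (by linarith : -x ≤ 0)]; simp
    · intro f
      rw [fc_fc hon, fc_fc hon, ← fc_add]
      apply fc_congr
      intro x
      rw [Real.mul_self_sqrt (le_max_right _ _), Real.mul_self_sqrt (le_max_right _ _)]
      rcases le_total x 0 with h | h
      · rw [max_eq_right h, max_eq_left (by linarith : (0:ℝ) ≤ -x), abs_of_nonpos h]; ring
      · rw [max_eq_left h, max_eq_right (by linarith : -x ≤ 0), abs_of_nonneg h]; ring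
    · intro f
      rw [fc_fc hon, fc_fc hon, ← fc_sub, ← fc_id hc he]
      apply fc_congr
      intro x
      rw [Real.mul_self_sqrt (le_max_right _ _), Real.mul_self_sqrt (le_max_right _ _)]
      rcases le_total x 0 with h | h
      · rw [max_eq_right h, max_eq_left (by linarith : (0:ℝ) ≤ -x)]; ring
      · rw [max_eq_left h, max_eq_right (by linarith : -x ≤ 0)]; ring

/-- `0 ≤ <f, |S| f>` -/
theorem IsAbs.nonneg {S A : (Ω → ℝ) →ₗ[ℝ] (Ω → ℝ)} (hA : IsAbs S A) (f : Ω → ℝ) :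
    0 ≤ dot f (A f) := by
  obtain ⟨Bp, Bm, sp, sm, -, -, -, hAe, -⟩ := hA.parts
  rw [hAe, dot_add_right, ← sp, ← sm]
  exact add_nonneg (dot_self_nonneg _) (dot_self_nonneg _)

/-- `| |S| f | = | S f |` -/
theorem IsAbs.norm_eq {S A : (Ω → ℝ) →ₗ[ℝ] (Ω → ℝ)} (hA : IsAbs S A) (f : Ω → ℝ) :
    dot (A f) (A f) = dot (S f) (S f) := by
  obtain ⟨Bp, Bm, sp, sm, -, -, h0, hAe, hSe⟩ := hA.parts
  have hz : dot (Bp (Bp f)) (Bm (Bm f)) = 0 := by
    rw [sp, h0]
    simp [dot]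
  rw [hAe, hSe, dot_add_left, dot_add_right, dot_add_right, dot_sub_left, dot_sub_right,
    dot_sub_right, dot_comm (Bm (Bm f)) (Bp (Bp f)), hz]
  ring

/-- for commuting symmetric `S, T`: `<S f, T f> ≤ <|S| f, |T| f>`.
Proof: `|S| = P₁ + M₁, S = P₁ - M₁, |T| = P₂ + M₂, T = P₂ - M₂`, difference
`= 2 <P₁ f, M₂ f> + 2 <M₁ f, P₂ f>`, and `<Bp₁² f, Bm₂² f> = |Bm₂ Bp₁ f|²` by symmetry and
commutation (`Bp₁` commutes with `T` by `Bicomm S Bp₁`, hence `Bm₂` commutes with `Bp₁`). -/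
theorem IsAbs.mul_ge {S T A B : (Ω → ℝ) →ₗ[ℝ] (Ω → ℝ)} (hA : IsAbs S A) (hB : IsAbs T B)
    (hST : ∀ f, S (T f) = T (S f)) (f : Ω → ℝ) :
    dot (S f) (T f) ≤ dot (A f) (B f) := by
  obtain ⟨P1, M1, sP1, sM1, bP1, bM1, -, hAe, hSe⟩ := hA.parts
  obtain ⟨P2, M2, sP2, sM2, bP2, bM2, -, hBe, hTe⟩ := hB.parts
  -- generic positivity
  have key : ∀ (X Y : (Ω → ℝ) →ₗ[ℝ] (Ω → ℝ)), Symm X → Symm Y → Bicomm S X → Bicomm T Y →
      0 ≤ dot (X (X f)) (Y (Y f)) := by
    intro X Y sX sY bX bY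
    have c1 : ∀ g, T (X g) = X (T g) := bX T (fun g => (hST g).symm)
    have c2 : ∀ g, X (Y g) = Y (X g) := bY X (fun g => (c1 g).symm)
    have : dot (X (X f)) (Y (Y f)) = dot (Y (X f)) (Y (X f)) := by
      rw [sX, c2, ← sY, c2]
    rw [this]
    exact dot_self_nonneg _
  have k1 := key P1 M2 sP1 sM2 bP1 bM2
  have k2 := key M1 P2 sM1 sP2 bM1 bP2
  rw [hAe, hBe, hSe, hTe, dot_add_left, dot_add_right, dot_add_right, dot_sub_left, dot_sub_right,
    dot_sub_right]
  linarith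

end P328JS2
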