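import Vale.Agent.Lib.P328.JS2.Site

/-!
# P328 (JS), sl2 model, B3: matrix entries, trace, restriction to `Y2 t s`
-/

namespace P328JS2

open P335 P328RC Finset

variable {κ : Type*} [Fintype κ] {t : κ → ℕ}

theorem mat_apply (A : Module.End ℝ (Box t → ℝ)) (x y : Box t) :
    mat A x y = A (Pi.single y 1) x := by
  simp [mat, LinearMap.toMatrix'_apply]

theorem mat_mul (A B : Module.End ℝ (Box t → ℝ)) : mat (A * B) = mat A * mat B := by
  simp [mat, LinearMap.toMatrix'_mul]

theorem mat_add (A B : Module.End ℝ (Box t → ℝ)) : mat (A + B) = mat A + mat B := by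
  simp [mat]

theorem mat_sum {α : Type*} (s : Finset α) (A : α → Module.End ℝ (Box t → ℝ)) :
    mat (∑ a ∈ s, A a) = ∑ a ∈ s, mat (A a) := by
  simp [mat]

theorem mat_smul (a : ℝ) (A : Module.End ℝ (Box t → ℝ)) : mat (a • A) = a • mat A := by
  simp [mat]

theorem mat_Dg (φ : Box t → ℝ) (x y : Box t) : mat (Dg φ) x y = if x = y then φ x else 0 := by
  classical
  rw [mat_apply, Dg_apply]
  by_cases h : x = y
  · subst h; simp
  · rw [if_neg h, Pi.single_eq_of_ne h, mul_zero]

private theorem dot_single_left (f : Box t → ℝ) (x : Box t) :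
    dot (Pi.single x 1) f = f x := by
  unfold dot
  rw [Finset.sum_eq_single x]
  · simp
  · intro b _ hb
    rw [Pi.single_eq_of_ne hb, zero_mul]
  · intro h; exact absurd (Finset.mem_univ x) h

private theorem dot_single_right (f : Box t → ℝ) (x : Box t) :
    dot f (Pi.single x 1) = f x := by
  unfold dot
  rw [Finset.sum_eq_single x]
  · simp
  · intro b _ hb
    rw [Pi.single_eq_of_ne hb, mul_zero]
  · intro h; exact absurd (Finset.mem_univ x) h

theorem mat_symm {A : Module.End ℝ (Box t → ℝ)} (hA : ∀ f g, dot (A f) g = dot f (A g))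
    (x y : Box t) : mat A x y = mat A y x := by
  rw [mat_apply, mat_apply, ← dot_single_right (A (Pi.single y 1)) x, hA, dot_single_left]

theorem tr_eq_trace (A : Module.End ℝ (Box t → ℝ)) : tr A = Matrix.trace (mat A) := rfl

theorem tr_mul_comm (A B : Module.End ℝ (Box t → ℝ)) : tr (A * B) = tr (B * A) := by
  rw [tr_eq_trace, tr_eq_trace, mat_mul, mat_mul, Matrix.trace_mul_comm]

theorem tr_add (A B : Module.End ℝ (Box t → ℝ)) : tr (A + B) = tr A + tr B := by
  rw [tr_eq_trace, tr_eq_trace, tr_eq_trace, mat_add, Matrix.trace_add]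

theorem tr_smul (a : ℝ) (A : Module.End ℝ (Box t → ℝ)) : tr (a • A) = a * tr A := by
  rw [tr_eq_trace, tr_eq_trace, mat_smul, Matrix.trace_smul, smul_eq_mul]

theorem tr_sub (A B : Module.End ℝ (Box t → ℝ)) : tr (A - B) = tr A - tr B := by
  have h : mat (A - B) = mat A - mat B := by simp [mat]
  rw [tr_eq_trace, tr_eq_trace, tr_eq_trace, h, Matrix.trace_sub]

theorem tr_Dg_mul (φ : Box t → ℝ) (A : Module.End ℝ (Box t → ℝ)) :
    tr (Dg φ * A) = ∑ x, φ x * mat A x x := by
  classical
  unfold tr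
  apply Finset.sum_congr rfl
  intro x _
  rw [mat_apply, mat_apply, Module.End.mul_apply, Dg_apply]

theorem tr_Dg (φ : Box t → ℝ) : tr (Dg φ) = ∑ x, φ x := by
  unfold tr
  apply Finset.sum_congr rfl
  intro x _
  rw [mat_Dg, if_pos rfl]

/-- an operator commuting with `Dg φ` has no entries between different levels of `φ` -/
theorem mat_eq_zero_of_comm {A : Module.End ℝ (Box t → ℝ)} {φ : Box t → ℝ}
    (h : Commute A (Dg φ)) {x y : Box t} (hxy : φ x ≠ φ y) : mat A x y = 0 := by
  have h1 : mat (A * Dg φ) x y = mat (Dg φ * A) x y := by rw [h.eq]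
  rw [mat_mul, mat_mul, Matrix.mul_apply, Matrix.mul_apply] at h1
  have e1 : ∑ u, mat A x u * mat (Dg φ) u y = mat A x y * φ y := by
    rw [Finset.sum_eq_single y]
    · rw [mat_Dg, if_pos rfl]
    · intro u _ hu
      rw [mat_Dg, if_neg hu, mul_zero]
    · intro hy
      exact absurd (Finset.mem_univ y) hy
  have e2 : ∑ u, mat (Dg φ) x u * mat A u y = φ x * mat A x y := by
    rw [Finset.sum_eq_single x]
    · rw [mat_Dg, if_pos rfl]
    · intro u _ hu
      rw [mat_Dg, if_neg (Ne.symm hu), zero_mul]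
    · intro hx
      exact absurd (Finset.mem_univ x) hx
  rw [e1, e2] at h1
  have h2 : mat A x y * (φ y - φ x) = 0 := by linarith
  rcases mul_eq_zero.mp h2 with h3 | h3
  · exact h3
  · exact absurd (by linarith) hxy

/-- weight preserving operators -/
def WP (A : Module.End ℝ (Box t → ℝ)) : Prop :=
  ∀ x y : Box t, ∑ j, x.1 j ≠ ∑ j, y.1 j → mat A x y = 0

private theorem inc_inj' {s : ℕ} : Function.Injective (inc : Y2 t s → Box t) := by
  intro a b h
  apply Subtype.ext
  exact congrArg (fun u : Box t => u.1) h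

private theorem sum_inc {s : ℕ} (f : Box t → ℝ) (hf : ∀ u : Box t, ∑ j, u.1 j ≠ s → f u = 0) :
    ∑ u, f u = ∑ c : Y2 t s, f (inc c) := by
  classical
  rw [← Finset.sum_image (s := (Finset.univ : Finset (Y2 t s))) (g := inc) (f := f)
    (fun a _ b _ h => inc_inj' h)]
  symm
  apply Finset.sum_subset (Finset.subset_univ _)
  intro u _ hu
  apply hf
  intro hs
  apply hu
  rw [Finset.mem_image]
  exact ⟨⟨u.1, u.2, hs⟩, Finset.mem_univ _, rfl⟩

theorem res_mul (s : ℕ) {A : Module.End ℝ (Box t → ℝ)} (hA : WP A)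
    (B : Module.End ℝ (Box t → ℝ)) : res s (A * B) = res s A * res s B := by
  ext a b
  rw [Matrix.mul_apply]
  show mat (A * B) (inc a) (inc b) = ∑ c, mat A (inc a) (inc c) * mat B (inc c) (inc b)
  rw [mat_mul, Matrix.mul_apply]
  apply sum_inc (fun u => mat A (inc a) u * mat B u (inc b))
  intro u hu
  have : mat A (inc a) u = 0 := by
    apply hA
    intro h
    apply hu
    rw [← h]
    exact a.2.2
  show mat A (inc a) u * mat B u (inc b) = 0
  rw [this, zero_mul]

theorem res_mul' (s : ℕ) (A : Module.End ℝ (Box t → ℝ)) {B : Module.End ℝ (Box t → ℝ)}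
    (hB : WP B) : res s (A * B) = res s A * res s B := by
  ext a b
  rw [Matrix.mul_apply]
  show mat (A * B) (inc a) (inc b) = ∑ c, mat A (inc a) (inc c) * mat B (inc c) (inc b)
  rw [mat_mul, Matrix.mul_apply]
  apply sum_inc (fun u => mat A (inc a) u * mat B u (inc b))
  intro u hu
  have : mat B u (inc b) = 0 := by
    apply hB
    intro h
    apply hu
    rw [h]
    exact b.2.2
  show mat A (inc a) u * mat B u (inc b) = 0
  rw [this, mul_zero]

theorem res_isSymm (s : ℕ) {A : Module.End ℝ (Box t → ℝ)}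
    (hA : ∀ f g, dot (A f) g = dot f (A g)) : (res s A).IsSymm := by
  ext a b
  show mat A (inc b) (inc a) = mat A (inc a) (inc b)
  exact mat_symm hA _ _

theorem inc_injective {s : ℕ} : Function.Injective (inc : Y2 t s → Box t) := inc_inj'

end P328JS2
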