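import Vale.Agent.Lib.P328.JS2.BoxDefs

/-!
# P328 (JS), sl2 model, B1: relations between the site operators
All are pointwise identities: `LinearMap.ext; funext x; simp [...]`, with a case split
`x j = t j` / `x j < t j` (resp. `x j = 0`), `Real.mul_self_sqrt`.
-/

namespace P328JS2

open P335 P328RC Finset

variable {κ : Type*} [Fintype κ] [DecidableEq κ] {t : κ → ℕ}

theorem Dg_mul (φ ψ : Box t → ℝ) : Dg φ * Dg ψ = Dg (fun x => φ x * ψ x) := by
  apply LinearMap.ext; intro f; funext x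
  simp [Module.End.mul_apply, mul_assoc]

theorem Dg_add (φ ψ : Box t → ℝ) : Dg φ + Dg ψ = Dg (fun x => φ x + ψ x) := by
  apply LinearMap.ext; intro f; funext x
  simp [add_mul]

theorem Dg_sum {α : Type*} (s : Finset α) (φ : α → Box t → ℝ) :
    ∑ a ∈ s, Dg (φ a) = Dg (fun x => ∑ a ∈ s, φ a x) := by
  apply LinearMap.ext; intro f; funext x
  simp [LinearMap.sum_apply, Finset.sum_apply, Finset.sum_mul]

theorem Dg_smul (a : ℝ) (φ : Box t → ℝ) : a • Dg φ = Dg (fun x => a * φ x) := by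
  apply LinearMap.ext; intro f; funext x
  simp [mul_assoc]

theorem Dg_one : Dg (fun _ : Box t => (1 : ℝ)) = 1 := by
  apply LinearMap.ext; intro f; funext x
  simp

theorem Dg_const (a : ℝ) : Dg (fun _ : Box t => a) = algebraMap ℝ _ a := by
  apply LinearMap.ext; intro f; funext x
  simp [Module.algebraMap_end_apply]

theorem Dg_comm (φ ψ : Box t → ℝ) : Commute (Dg φ) (Dg ψ) := by
  show Dg φ * Dg ψ = Dg ψ * Dg φ
  rw [Dg_mul, Dg_mul]
  congr 1
  funext x
  ring

theorem up_self (j : κ) (x : Box t) : (up j x).1 j = min (x.1 j + 1) (t j) := by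
  simp [up]

theorem up_of_ne {j k : κ} (h : k ≠ j) (x : Box t) : (up j x).1 k = x.1 k := by
  simp [up, Function.update_of_ne h]

theorem dn_self (j : κ) (x : Box t) : (dn j x).1 j = x.1 j - 1 := by
  simp [dn]

theorem dn_of_ne {j k : κ} (h : k ≠ j) (x : Box t) : (dn j x).1 k = x.1 k := by
  simp [dn, Function.update_of_ne h]

theorem Box.ext' {x y : Box t} (h : ∀ k, x.1 k = y.1 k) : x = y :=
  Subtype.ext (funext h)

theorem dn_up {j : κ} {x : Box t} (h : x.1 j < t j) : dn j (up j x) = x := by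
  apply Box.ext'
  intro k
  by_cases hk : k = j
  · subst hk
    rw [dn_self, up_self]
    omega
  · rw [dn_of_ne hk, up_of_ne hk]

theorem up_dn {j : κ} {x : Box t} (h : 0 < x.1 j) : up j (dn j x) = x := by
  apply Box.ext'
  intro k
  by_cases hk : k = j
  · subst hk
    rw [up_self, dn_self]
    have := x.2 k
    omega
  · rw [up_of_ne hk, dn_of_ne hk]

theorem wE_top {j : κ} {x : Box t} (h : ¬ x.1 j < t j) : wE j x = 0 := by
  have h1 : x.1 j = t j := le_antisymm (x.2 j) (not_lt.1 h)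
  unfold wE
  rw [h1]
  simp

theorem wF_bot {j : κ} {x : Box t} (h : ¬ 0 < x.1 j) : wF j x = 0 := by
  have h1 : x.1 j = 0 := by omega
  unfold wF
  rw [h1]
  simp

theorem wF_up {j : κ} {x : Box t} (h : x.1 j < t j) : wF j (up j x) = wE j x := by
  unfold wF wE
  rw [up_self, min_eq_left (by omega)]
  congr 1
  push_cast
  ring

theorem wE_dn {j : κ} {x : Box t} (h : 0 < x.1 j) : wE j (dn j x) = wF j x := by
  unfold wF wE
  rw [dn_self]
  congr 1
  rw [Nat.cast_sub (by omega)]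
  push_cast
  ring

theorem wE_sq (j : κ) (x : Box t) :
    wE j x * wE j x = ((x.1 j : ℝ) + 1) * ((t j : ℝ) - x.1 j) := by
  unfold wE
  apply Real.mul_self_sqrt
  have : (x.1 j : ℝ) ≤ t j := by exact_mod_cast x.2 j
  have h2 : (0 : ℝ) ≤ x.1 j := Nat.cast_nonneg _
  apply mul_nonneg <;> linarith

theorem wF_sq (j : κ) (x : Box t) :
    wF j x * wF j x = (x.1 j : ℝ) * ((t j : ℝ) - x.1 j + 1) := by
  unfold wF
  apply Real.mul_self_sqrt
  have : (x.1 j : ℝ) ≤ t j := by exact_mod_cast x.2 j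
  have h2 : (0 : ℝ) ≤ x.1 j := Nat.cast_nonneg _
  apply mul_nonneg <;> linarith

theorem Eo_Fo_self (j : κ) :
    Eo j * Fo j = Dg (fun x : Box t => ((x.1 j : ℝ) + 1) * ((t j : ℝ) - x.1 j)) := by
  apply LinearMap.ext; intro f; funext x
  rw [Module.End.mul_apply, Eo_apply, Fo_apply, Dg_apply, ← wE_sq]
  by_cases h : x.1 j < t j
  · rw [wF_up h, dn_up h]; ring
  · rw [wE_top h]; ring

theorem Fo_Eo_self (j : κ) :
    Fo j * Eo j = Dg (fun x : Box t => (x.1 j : ℝ) * ((t j : ℝ) - x.1 j + 1)) := by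
  apply LinearMap.ext; intro f; funext x
  rw [Module.End.mul_apply, Fo_apply, Eo_apply, Dg_apply, ← wF_sq]
  by_cases h : 0 < x.1 j
  · rw [wE_dn h, up_dn h]; ring
  · rw [wF_bot h]; ring

theorem wE_up_of_ne {j k : κ} (h : k ≠ j) (x : Box t) : wE k (up j x) = wE k x := by
  unfold wE; rw [up_of_ne h]

theorem wE_dn_of_ne {j k : κ} (h : k ≠ j) (x : Box t) : wE k (dn j x) = wE k x := by
  unfold wE; rw [dn_of_ne h]

theorem wF_up_of_ne {j k : κ} (h : k ≠ j) (x : Box t) : wF k (up j x) = wF k x := by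
  unfold wF; rw [up_of_ne h]

theorem wF_dn_of_ne {j k : κ} (h : k ≠ j) (x : Box t) : wF k (dn j x) = wF k x := by
  unfold wF; rw [dn_of_ne h]

theorem up_up_comm {j k : κ} (h : j ≠ k) (x : Box t) : up k (up j x) = up j (up k x) := by
  apply Box.ext'
  intro l
  by_cases h1 : l = k
  · subst h1
    rw [up_self, up_of_ne (Ne.symm h), up_of_ne (Ne.symm h), up_self]
  · by_cases h2 : l = j
    · subst h2
      rw [up_of_ne h1, up_self, up_self, up_of_ne h1]
    · rw [up_of_ne h1, up_of_ne h2, up_of_ne h2, up_of_ne h1]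

theorem dn_dn_comm {j k : κ} (h : j ≠ k) (x : Box t) : dn k (dn j x) = dn j (dn k x) := by
  apply Box.ext'
  intro l
  by_cases h1 : l = k
  · subst h1
    rw [dn_self, dn_of_ne (Ne.symm h), dn_of_ne (Ne.symm h), dn_self]
  · by_cases h2 : l = j
    · subst h2
      rw [dn_of_ne h1, dn_self, dn_self, dn_of_ne h1]
    · rw [dn_of_ne h1, dn_of_ne h2, dn_of_ne h2, dn_of_ne h1]

theorem dn_up_comm {j k : κ} (h : j ≠ k) (x : Box t) : dn k (up j x) = up j (dn k x) := by
  apply Box.ext'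
  intro l
  by_cases h1 : l = k
  · subst h1
    rw [dn_self, up_of_ne (Ne.symm h), up_of_ne (Ne.symm h), dn_self]
  · by_cases h2 : l = j
    · subst h2
      rw [dn_of_ne h1, up_self, up_self, dn_of_ne h1]
    · rw [dn_of_ne h1, up_of_ne h2, up_of_ne h2, dn_of_ne h1]

theorem Eo_comm (j k : κ) : Commute (Eo j : Module.End ℝ (Box t → ℝ)) (Eo k) := by
  by_cases h : j = k
  · subst h; exact Commute.refl _
  · show Eo j * Eo k = Eo k * Eo j
    apply LinearMap.ext; intro f; funext x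
    rw [Module.End.mul_apply, Module.End.mul_apply, Eo_apply, Eo_apply, Eo_apply, Eo_apply,
      wE_up_of_ne (Ne.symm h), wE_up_of_ne h, up_up_comm h]
    ring

theorem Fo_comm (j k : κ) : Commute (Fo j : Module.End ℝ (Box t → ℝ)) (Fo k) := by
  by_cases h : j = k
  · subst h; exact Commute.refl _
  · show Fo j * Fo k = Fo k * Fo j
    apply LinearMap.ext; intro f; funext x
    rw [Module.End.mul_apply, Module.End.mul_apply, Fo_apply, Fo_apply, Fo_apply, Fo_apply,
      wF_dn_of_ne (Ne.symm h), wF_dn_of_ne h, dn_dn_comm h]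
    ring

theorem Eo_Fo_comm {j k : κ} (h : j ≠ k) : Commute (Eo j : Module.End ℝ (Box t → ℝ)) (Fo k) := by
  show Eo j * Fo k = Fo k * Eo j
  apply LinearMap.ext; intro f; funext x
  rw [Module.End.mul_apply, Module.End.mul_apply, Eo_apply, Fo_apply, Fo_apply, Eo_apply,
    wF_up_of_ne (Ne.symm h), wE_dn_of_ne h, dn_up_comm h]
  ring

theorem Dg_Eo (j : κ) (φ ψ : Box t → ℝ) (h : ∀ x : Box t, x.1 j < t j → φ x = ψ (up j x)) :
    Dg φ * Eo j = Eo j * Dg ψ := by
  apply LinearMap.ext; intro f; funext x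
  rw [Module.End.mul_apply, Module.End.mul_apply, Dg_apply, Eo_apply, Eo_apply, Dg_apply]
  by_cases hx : x.1 j < t j
  · rw [h x hx]; ring
  · rw [wE_top hx]; ring

theorem Dg_Fo (j : κ) (φ ψ : Box t → ℝ) (h : ∀ x : Box t, 0 < x.1 j → φ x = ψ (dn j x)) :
    Dg φ * Fo j = Fo j * Dg ψ := by
  apply LinearMap.ext; intro f; funext x
  rw [Module.End.mul_apply, Module.End.mul_apply, Dg_apply, Fo_apply, Fo_apply, Dg_apply]
  by_cases hx : 0 < x.1 j
  · rw [h x hx]; ring
  · rw [wF_bot hx]; ring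

/-- `Fo j` is the adjoint of `Eo j` (bijection `x ↦ up j x` between `{x j < t j}` and `{0 < y j}`,
`wE j x = wF j (up j x)`) -/
theorem dot_Eo (j : κ) (f g : Box t → ℝ) : dot (Eo j f) g = dot f (Fo j g) := by
  unfold dot
  have h1 : ∑ x : Box t, Eo j f x * g x
      = ∑ x ∈ univ.filter (fun x : Box t => x.1 j < t j), Eo j f x * g x := by
    symm
    apply Finset.sum_filter_of_ne
    intro x _ hx
    by_contra hlt
    apply hx
    rw [Eo_apply, wE_top hlt]; ring
  have h2 : ∑ y : Box t, f y * Fo j g y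
      = ∑ y ∈ univ.filter (fun y : Box t => 0 < y.1 j), f y * Fo j g y := by
    symm
    apply Finset.sum_filter_of_ne
    intro y _ hy
    by_contra hlt
    apply hy
    rw [Fo_apply, wF_bot hlt]; ring
  rw [h1, h2]
  refine Finset.sum_bij' (fun x _ => up j x) (fun y _ => dn j y) ?_ ?_ ?_ ?_ ?_
  · intro x hx
    rw [Finset.mem_filter] at hx ⊢
    refine ⟨mem_univ _, ?_⟩
    rw [up_self]
    omega
  · intro y hy
    rw [Finset.mem_filter] at hy ⊢
    refine ⟨mem_univ _, ?_⟩
    rw [dn_self]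
    have := y.2 j
    omega
  · intro x hx
    rw [Finset.mem_filter] at hx
    exact dn_up hx.2
  · intro y hy
    rw [Finset.mem_filter] at hy
    exact up_dn hy.2
  · intro x hx
    rw [Finset.mem_filter] at hx
    rw [Eo_apply, Fo_apply, wF_up hx.2, dn_up hx.2]
    ring

theorem dot_Fo (j : κ) (f g : Box t → ℝ) : dot (Fo j f) g = dot f (Eo j g) := by
  rw [dot_comm, ← dot_Eo, dot_comm]

theorem dot_Dg (φ f g : Box t → ℝ) : dot (Dg φ f) g = dot f (Dg φ g) := by
  unfold dot
  refine Finset.sum_congr rfl fun x _ => ?_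
  rw [Dg_apply, Dg_apply]; ring

end P328JS2
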