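import Vale.Agent.Lib.P328.JS2.TraceOp
import Vale.Agent.Lib.P328.JS2.Chord

/-!
# P328 (JS), sl2 model, B6: the trace identity
-/

namespace P328JS2

open P335 P328RC Finset

variable {κ : Type*} [Fintype κ] [DecidableEq κ] {t : κ → ℕ}

/-- induction on `b` from `tr_poly_zero`, `tr_poly_step`, `sum_chord_zero`, `sum_chord_step`
(with `Φ σ = P.eval (om t J σ)`, `θ = P.eval (om t J (b+1))`, `om_symm`) -/
theorem trace_chord {J : κ × κ} (hne : J.1 ≠ J.2) (u : κ → ℕ) (b : ℕ) (P : Polynomial ℝ) :
    tr (Dg (ind J u b) * Polynomial.aeval (CJ J : Module.End ℝ (Box t → ℝ)) P)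
      = ∑ x ∈ (chordSet J u b : Finset (Box t)), P.eval (om t J (lat J x)) := by
  induction b with
  | zero =>
    rw [tr_poly_zero hne u P, sum_chord_zero J u (fun σ => P.eval (om t J σ))]
  | succ b ih =>
    have h1 := tr_poly_step (t := t) hne u b P
    have h2 := sum_chord_step (t := t) hne u b (fun σ => P.eval (om t J σ))
      (P.eval (om t J (b + 1))) (fun _ _ => rfl)
      (fun _ _ hb => by
        show P.eval (om t J (t J.1 + t J.2 - b)) = P.eval (om t J (b + 1))
        rw [om_symm J b hb])
    linarith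

end P328JS2
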