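import Vale.Agent.Lib.P328.JS2.Casimir
import Vale.Agent.Lib.P328.JS2.Mat

/-!
# P328 (JS), sl2 model, B4: the trace step
`1_c (C - θ) = 1_c F E` on the chord `c` of level `b+1`, `1_{c'} (C - θ) = 1_{c'} E F` on the chord
`c'` of level `b`, `θ = om t J (b+1)`, `E 1_c = 1_{c'} E`, and `tr (XY) = tr (YX)`.
-/

namespace P328JS2

open P335 P328RC Finset

variable {κ : Type*} [Fintype κ] [DecidableEq κ] {t : κ → ℕ}

theorem tr_ind (J : κ × κ) (u : κ → ℕ) (b : ℕ) :
    tr (Dg (ind J u b) : Module.End ℝ (Box t → ℝ)) = ((chordSet J u b : Finset (Box t)).card : ℝ) := by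
  classical
  rw [tr_Dg, chordSet, Finset.card_filter]
  push_cast
  refine Finset.sum_congr rfl fun x _ => ?_
  unfold ind
  by_cases h : (∀ k, k ≠ J.1 → k ≠ J.2 → x.1 k = u k) ∧ x.1 J.1 + x.1 J.2 = b
  · simp only [if_pos h]
  · simp only [if_neg h]

/-- on the chord of level `b + 1`: `1_c (C - θ) = 1_c F E` -/
theorem ind_mul_sub (J : κ × κ) (u : κ → ℕ) (b : ℕ) :
    Dg (ind J u b) * ((CJ J : Module.End ℝ (Box t → ℝ)) - algebraMap ℝ _ (om t J b))
      = Dg (ind J u b) * FJ J * EJ J := by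
  rw [CJ, mul_sub, mul_add, ind_mul_D, Algebra.algebraMap_eq_smul_one, mul_smul_comm, mul_one,
    mul_assoc]
  abel

/-- on the chord of level `b`: `1_c (C - θ) = 1_c E F`, `θ = om (b + 1)` -/
theorem ind_mul_sub' {J : κ × κ} (hne : J.1 ≠ J.2) (u : κ → ℕ) (b : ℕ) :
    Dg (ind J u b) * ((CJ J : Module.End ℝ (Box t → ℝ)) - algebraMap ℝ _ (om t J (b + 1)))
      = Dg (ind J u b) * EJ J * FJ J := by
  rw [CJ_eq' hne, mul_sub, mul_add, ind_mul_D', Algebra.algebraMap_eq_smul_one, mul_smul_comm,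
    mul_one, mul_assoc]
  abel

theorem tr_step {J : κ × κ} (hne : J.1 ≠ J.2) (u : κ → ℕ) (b m : ℕ) :
    tr (Dg (ind J u (b + 1)) *
        ((CJ J : Module.End ℝ (Box t → ℝ)) - algebraMap ℝ _ (om t J (b + 1))) ^ (m + 1))
      = tr (Dg (ind J u b) *
        ((CJ J : Module.End ℝ (Box t → ℝ)) - algebraMap ℝ _ (om t J (b + 1))) ^ (m + 1)) := by
  set D : Module.End ℝ (Box t → ℝ) := CJ J - algebraMap ℝ _ (om t J (b + 1)) with hD
  have hDF : Commute D (FJ J) :=
    (CJ_comm_FJ hne).sub_left (Algebra.commute_algebraMap_left _ _)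
  have hDF' : Commute (D ^ m) (FJ J) := hDF.pow_left m
  calc tr (Dg (ind J u (b + 1)) * D ^ (m + 1))
      = tr (Dg (ind J u (b + 1)) * D * D ^ m) := by rw [pow_succ', mul_assoc]
    _ = tr (FJ J * (Dg (ind J u b) * EJ J * D ^ m)) := by
        rw [hD, ind_mul_sub, FJ_ind J hne]
        simp only [mul_assoc]
    _ = tr (Dg (ind J u b) * EJ J * D ^ m * FJ J) := tr_mul_comm _ _
    _ = tr (Dg (ind J u b) * EJ J * FJ J * D ^ m) := by
        rw [mul_assoc _ (D ^ m), hDF'.eq, ← mul_assoc]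
    _ = tr (Dg (ind J u b) * D * D ^ m) := by rw [hD, ind_mul_sub' hne]
    _ = tr (Dg (ind J u b) * D ^ (m + 1)) := by rw [pow_succ', mul_assoc]

/-- the trace step for polynomials in `C - θ` -/
theorem tr_poly_step_aux {J : κ × κ} (hne : J.1 ≠ J.2) (u : κ → ℕ) (b : ℕ) (Q : Polynomial ℝ) :
    tr (Dg (ind J u (b + 1)) * Polynomial.aeval
          ((CJ J : Module.End ℝ (Box t → ℝ)) - algebraMap ℝ _ (om t J (b + 1))) Q)
        - ((chordSet J u (b + 1) : Finset (Box t)).card : ℝ) * Q.eval 0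
      = tr (Dg (ind J u b) * Polynomial.aeval
          ((CJ J : Module.End ℝ (Box t → ℝ)) - algebraMap ℝ _ (om t J (b + 1))) Q)
        - ((chordSet J u b : Finset (Box t)).card : ℝ) * Q.eval 0 := by
  induction Q using Polynomial.induction_on' with
  | add p q hp hq =>
      simp only [map_add, mul_add, tr_add, Polynomial.eval_add]
      linarith
  | monomial n a =>
      rw [Polynomial.aeval_monomial, Polynomial.eval_monomial, Algebra.algebraMap_eq_smul_one,
        smul_mul_assoc, one_mul, mul_smul_comm, mul_smul_comm, tr_smul, tr_smul]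
      cases n with
      | zero =>
          rw [pow_zero, mul_one, mul_one, tr_ind, tr_ind, pow_zero]
          ring
      | succ m =>
          rw [tr_step hne, zero_pow (Nat.succ_ne_zero m)]
          ring

/-- expand `P` around `θ` (e.g. `P = (P.comp (X + C θ)).comp (X - C θ)`, or induction on `P`) -/
theorem tr_poly_step {J : κ × κ} (hne : J.1 ≠ J.2) (u : κ → ℕ) (b : ℕ) (P : Polynomial ℝ) :
    tr (Dg (ind J u (b + 1)) * Polynomial.aeval (CJ J : Module.End ℝ (Box t → ℝ)) P)
        - ((chordSet J u (b + 1) : Finset (Box t)).card : ℝ) * P.eval (om t J (b + 1))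
      = tr (Dg (ind J u b) * Polynomial.aeval (CJ J : Module.End ℝ (Box t → ℝ)) P)
        - ((chordSet J u b : Finset (Box t)).card : ℝ) * P.eval (om t J (b + 1)) := by
  have h := tr_poly_step_aux (t := t) hne u b
    (P.comp (Polynomial.X + Polynomial.C (om t J (b + 1))))
  rw [Polynomial.aeval_comp, Polynomial.eval_comp] at h
  simpa using h

/-- on the chord of level `0`: `1_c C = om 0 • 1_c` -/
theorem ind_zero_mul_CJ (J : κ × κ) (u : κ → ℕ) :
    Dg (ind J u 0) * (CJ J : Module.End ℝ (Box t → ℝ)) = om t J 0 • Dg (ind J u 0) := by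
  rw [CJ, mul_add, ind_mul_D, ← mul_assoc, FJ_ind_zero, zero_mul, zero_add]

theorem ind_zero_mul_pow (J : κ × κ) (u : κ → ℕ) (n : ℕ) :
    Dg (ind J u 0) * (CJ J : Module.End ℝ (Box t → ℝ)) ^ n = om t J 0 ^ n • Dg (ind J u 0) := by
  induction n with
  | zero => simp
  | succ n ih =>
      rw [pow_succ', ← mul_assoc, ind_zero_mul_CJ, smul_mul_assoc, ih, smul_smul, pow_succ']

theorem tr_poly_zero {J : κ × κ} (hne : J.1 ≠ J.2) (u : κ → ℕ) (P : Polynomial ℝ) :
    tr (Dg (ind J u 0) * Polynomial.aeval (CJ J : Module.End ℝ (Box t → ℝ)) P)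
      = ((chordSet J u 0 : Finset (Box t)).card : ℝ) * P.eval (om t J 0) := by
  induction P using Polynomial.induction_on' with
  | add p q hp hq =>
      simp only [map_add, mul_add, tr_add, Polynomial.eval_add]
      linarith
  | monomial n a =>
      rw [Polynomial.aeval_monomial, Polynomial.eval_monomial, Algebra.algebraMap_eq_smul_one,
        smul_mul_assoc, one_mul, mul_smul_comm, tr_smul, ind_zero_mul_pow, tr_smul, tr_ind]
      ring

end P328JS2
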