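import Vale.Agent.Lib.P328.JS2.Trace

/-!
# P328 (JS), sl2 model, B8: polynomials in the Casimir, restricted to `Y2 t s`
-/

namespace P328JS2

open P335 P328RC Finset

variable {κ : Type*} [Fintype κ] [DecidableEq κ] {t : κ → ℕ}

theorem aeval_comm {A B : Module.End ℝ (Box t → ℝ)} (h : Commute A B) (P : Polynomial ℝ) :
    Commute (Polynomial.aeval A P) B := by
  induction P using Polynomial.induction_on with
  | C a =>
    rw [Polynomial.aeval_C]
    exact Algebra.commutes a B
  | add p q hp hq =>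
    rw [map_add]
    exact hp.add_left hq
  | monomial n a ih =>
    rw [map_mul, Polynomial.aeval_C, map_pow, Polynomial.aeval_X]
    exact Commute.mul_left (Algebra.commutes a B) (h.pow_left _)

theorem aeval_symm {A : Module.End ℝ (Box t → ℝ)} (hA : ∀ f g, dot (A f) g = dot f (A g))
    (P : Polynomial ℝ) (f g : Box t → ℝ) :
    dot (Polynomial.aeval A P f) g = dot f (Polynomial.aeval A P g) := by
  have hpow : ∀ (n : ℕ) (f g : Box t → ℝ), dot ((A ^ n) f) g = dot f ((A ^ n) g) := by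
    intro n
    induction n with
    | zero => intro f g; simp
    | succ n ih =>
      intro f g
      rw [pow_succ, Module.End.mul_apply, ih, hA, ← Module.End.mul_apply, ← pow_succ', ← pow_succ]
  induction P using Polynomial.induction_on generalizing f g with
  | C a =>
    rw [Polynomial.aeval_C]
    simp only [Module.algebraMap_end_apply, dot, Pi.smul_apply, smul_eq_mul]
    exact Finset.sum_congr rfl fun x _ => by ring
  | add p q hp hq =>
    rw [map_add, LinearMap.add_apply, LinearMap.add_apply]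
    have h1 := hp f g
    have h2 := hq f g
    simp only [dot, Pi.add_apply, add_mul, mul_add, Finset.sum_add_distrib] at h1 h2 ⊢
    rw [h1, h2]
  | monomial n a ih =>
    rw [map_mul, Polynomial.aeval_C, map_pow, Polynomial.aeval_X, Module.End.mul_apply,
      Module.End.mul_apply]
    have h1 := hpow (n + 1) f g
    simp only [Module.algebraMap_end_apply, dot, Pi.smul_apply, smul_eq_mul] at h1 ⊢
    calc ∑ x, a * ((A ^ (n + 1)) f) x * g x = a * ∑ x, ((A ^ (n + 1)) f) x * g x := by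
          rw [Finset.mul_sum]; exact Finset.sum_congr rfl fun x _ => by ring
      _ = a * ∑ x, f x * ((A ^ (n + 1)) g) x := by rw [h1]
      _ = ∑ x, f x * (a * ((A ^ (n + 1)) g) x) := by
          rw [Finset.mul_sum]; exact Finset.sum_congr rfl fun x _ => by ring

/-- use `mat_eq_zero_of_comm` with `φ = ind J x.1 (x_p + x_q)` -/
theorem block_of_comm_ind {J : κ × κ} {A : Module.End ℝ (Box t → ℝ)}
    (h : ∀ u b, Commute A (Dg (ind J u b))) (x y : Box t)
    (hxy : ¬ ((∀ k, k ≠ J.1 → k ≠ J.2 → x.1 k = y.1 k) ∧ x.1 J.1 + x.1 J.2 = y.1 J.1 + y.1 J.2)) :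
    mat A x y = 0 := by
  apply mat_eq_zero_of_comm (h x.1 (x.1 J.1 + x.1 J.2))
  have h1 : ind J x.1 (x.1 J.1 + x.1 J.2) x = 1 := by
    unfold ind
    rw [if_pos]
    exact ⟨fun _ _ _ => rfl, rfl⟩
  have h2 : ind J x.1 (x.1 J.1 + x.1 J.2) y = 0 := by
    unfold ind
    rw [if_neg]
    rintro ⟨ha, hb⟩
    exact hxy ⟨fun k h1 h2 => (ha k h1 h2).symm, hb.symm⟩
  rw [h1, h2]
  exact one_ne_zero

theorem WP_of_comm_ind {J : κ × κ} (hne : J.1 ≠ J.2) {A : Module.End ℝ (Box t → ℝ)}
    (h : ∀ u b, Commute A (Dg (ind J u b))) : WP A := by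
  intro x y hxy
  apply block_of_comm_ind h
  rintro ⟨ha, hb⟩
  apply hxy
  have key : ∀ z : Box t, ∑ j, z.1 j
      = z.1 J.1 + z.1 J.2 + ∑ j ∈ (univ.erase J.1).erase J.2, z.1 j := by
    intro z
    rw [← Finset.add_sum_erase univ _ (Finset.mem_univ J.1),
      ← Finset.add_sum_erase (univ.erase J.1) _
        (Finset.mem_erase.mpr ⟨hne.symm, Finset.mem_univ J.2⟩), add_assoc]
  rw [key x, key y, hb]
  congr 1
  apply Finset.sum_congr rfl
  intro k hk
  rw [Finset.mem_erase, Finset.mem_erase] at hk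
  exact ha k hk.2.1 hk.1

theorem tr_ind_mul (J : κ × κ) (u : κ → ℕ) (b : ℕ) (A : Module.End ℝ (Box t → ℝ)) :
    tr (Dg (ind J u b) * A) = ∑ x ∈ (chordSet J u b : Finset (Box t)), mat A x x := by
  classical
  rw [tr_Dg_mul]
  unfold chordSet ind
  rw [Finset.sum_filter]
  refine Finset.sum_congr rfl (fun x _ => ?_)
  by_cases hx : (∀ k, k ≠ J.1 → k ≠ J.2 → x.1 k = u k) ∧ x.1 J.1 + x.1 J.2 = b
  · rw [if_pos hx, if_pos hx, one_mul]
  · rw [if_neg hx, if_neg hx, zero_mul]

/-- chord traces of `P(C_J)` -/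
theorem avg_diag_res {s : ℕ} {J : κ × κ} (hne : J.1 ≠ J.2) (P : Polynomial ℝ) :
    avg (RJ J) (fun a : Y2 t s => res s (Polynomial.aeval (CJ J) P) a a)
      = avg (RJ J) (fun a : Y2 t s => P.eval (om t J (lat2 J a))) := by
  funext a
  unfold avg
  congr 1
  have h1 := sum_cls_eq_chord hne a (fun x => mat (Polynomial.aeval (CJ J) P) x x)
  have h2 := sum_cls_eq_chord hne a (fun x => P.eval (om t J (lat J x)))
  have h3 := trace_chord (t := t) hne a.1 (a.1 J.1 + a.1 J.2) P
  rw [tr_ind_mul] at h3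
  calc ∑ b ∈ cls (RJ J) a, res s (Polynomial.aeval (CJ J) P) b b
      = ∑ b ∈ cls (RJ J) a, mat (Polynomial.aeval (CJ J) P) (inc b) (inc b) := rfl
    _ = ∑ b ∈ cls (RJ J) a, P.eval (om t J (lat J (inc b))) := by rw [h1, h3, ← h2]
    _ = ∑ b ∈ cls (RJ J) a, P.eval (om t J (lat2 J b)) := rfl

/-- Hilbert-Schmidt norm of `P(C_J)` (apply `avg_diag_res` to `P * P`, `P335.sum_avg`) -/
theorem hs_res {s : ℕ} {J : κ × κ} (hne : J.1 ≠ J.2) (P : Polynomial ℝ) :
    ∑ a : Y2 t s, ∑ b : Y2 t s, res s (Polynomial.aeval (CJ J) P) a b ^ 2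
      = ∑ a : Y2 t s, P.eval (om t J (lat2 J a)) ^ 2 := by
  have hWP : WP (Polynomial.aeval (CJ J : Module.End ℝ (Box t → ℝ)) P) :=
    WP_of_comm_ind hne (fun u b => aeval_comm (CJ_comm_ind J hne u b) P)
  have hsym : (res s (Polynomial.aeval (CJ J : Module.End ℝ (Box t → ℝ)) P)).IsSymm :=
    res_isSymm s (aeval_symm (CJ_symm J) P)
  have h1 : ∀ a : Y2 t s, ∑ b : Y2 t s, res s (Polynomial.aeval (CJ J) P) a b ^ 2
      = res s (Polynomial.aeval (CJ J) (P * P)) a a := by
    intro a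
    rw [map_mul, res_mul s hWP, Matrix.mul_apply]
    refine Finset.sum_congr rfl (fun b _ => ?_)
    rw [sq, hsym.apply a b]
  rw [Finset.sum_congr rfl (fun a _ => h1 a), ← sum_avg (RJ_equiv J), avg_diag_res hne,
    sum_avg (RJ_equiv J)]
  refine Finset.sum_congr rfl (fun a _ => ?_)
  rw [Polynomial.eval_mul, sq]

end P328JS2
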